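import Mathlib.Data.ZMod.Basic
import Mathlib.Data.Fintype.Pi
import Mathlib.Data.Fintype.BigOperators
import Mathlib.Algebra.BigOperators.Ring.Finset
import Mathlib.Algebra.Module.Basic
import Mathlib.SetTheory.Cardinal.Finite
import Mathlib.Tactic

/-!
# P263, block B: Gauss sums of quadratic forms over `𝔽₂`

`majority` : if `φ` is a quadratic form on a finite `𝔽₂`-vector space `V` with nonsingular associated
form `b`, and `φ(u) = 1`, then the form `(x, y) ↦ φ(x) + φ(y) + b(y, u)` on `V × V` takes the value `1`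
on more than half of the elements.
-/

open Finset

namespace Vale.Agent.P263.FR

/-- the sign `(-1)^a` -/
def sg (a : ZMod 2) : ℤ := if a = 0 then 1 else -1

theorem sg_add (a b : ZMod 2) : sg (a + b) = sg a * sg b := by
  fin_cases a <;> fin_cases b <;> decide

theorem sg_zero : sg 0 = 1 := rfl

theorem sg_one : sg 1 = -1 := by decide

theorem sg_sq (a : ZMod 2) : sg a * sg a = 1 := by
  fin_cases a <;> decide

/-- the Gauss sum -/
def gs {V : Type*} [Fintype V] (φ : V → ZMod 2) : ℤ := ∑ x, sg (φ x)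

/-- the number of ones and the Gauss sum -/
theorem gs_eq {V : Type*} [Fintype V] (φ : V → ZMod 2) :
    gs φ = (Fintype.card V : ℤ) - 2 * (Nat.card {x : V // φ x = 1} : ℤ) := by
  classical
  have h1 : ∀ a : ZMod 2, sg a = 1 - 2 * (if a = 1 then 1 else 0 : ℤ) := by decide
  have h2 : (Nat.card {x : V // φ x = 1} : ℤ) = ∑ x : V, (if φ x = 1 then 1 else 0 : ℤ) := by
    rw [Nat.card_eq_fintype_card, Fintype.card_subtype, Finset.sum_boole]
  rw [gs, h2, Finset.mul_sum]
  simp only [h1]
  rw [Finset.sum_sub_distrib]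
  simp

section

variable {V : Type*} [AddCommGroup V] [Fintype V] {φ : V → ZMod 2} {b : V → V → ZMod 2}

/-- a nonzero additive map to `𝔽₂` has Gauss sum zero -/
theorem gs_add_eq_zero (f : V → ZMod 2) (hf : ∀ x y, f (x + y) = f x + f y) {u : V}
    (hu : f u ≠ 0) : gs f = 0 := by
  have h1 : f u = 1 := by
    have : ∀ a : ZMod 2, a ≠ 0 → a = 1 := by decide
    exact this _ hu
  have h2 : gs f = ∑ x, sg (f (x + u)) :=
    (Fintype.sum_equiv (Equiv.addRight u) (fun x => sg (f (x + u))) (fun x => sg (f x))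
      (fun x => rfl)).symm
  have h3 : ∀ x, sg (f (x + u)) = - sg (f x) := fun x => by
    rw [hf, sg_add, h1, sg_one]
    ring
  have h4 : gs f = - gs f := by
    conv_lhs => rw [h2]
    simp only [h3]
    rw [Finset.sum_neg_distrib]
    rfl
  linarith

/-- the square of the Gauss sum of a nonsingular quadratic form is the number of elements -/
theorem gs_sq (hφ : ∀ x y, φ (x + y) = φ x + φ y + b x y)
    (hb : ∀ x y z, b (x + y) z = b x z + b y z) (hn : ∀ z, (∀ x, b x z = 0) → z = 0) :
    gs φ * gs φ = (Fintype.card V : ℤ) := by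
  classical
  have h0 : φ 0 = 0 := by
    have h1 := hφ 0 0
    have h2 := hb 0 0 0
    rw [add_zero] at h1 h2
    have h3 : b 0 0 = 0 := by
      have : ∀ a : ZMod 2, a = a + a → a = 0 := by decide
      exact this _ h2
    rw [h3, add_zero] at h1
    have : ∀ a : ZMod 2, a = a + a → a = 0 := by decide
    exact this _ h1
  have e1 : gs φ * gs φ = ∑ z, ∑ x, sg (φ x) * sg (φ (x + z)) := by
    rw [gs, Finset.sum_mul_sum, Finset.sum_comm]
    rw [Finset.sum_comm]
    rw [Finset.sum_comm (f := fun z x => sg (φ x) * sg (φ (x + z)))]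
    refine Finset.sum_congr rfl fun x _ => ?_
    exact (Fintype.sum_equiv (Equiv.addLeft x) (fun z => sg (φ x) * sg (φ (x + z)))
      (fun y => sg (φ x) * sg (φ y)) (fun z => rfl)).symm
  have e2 : ∀ z x, sg (φ x) * sg (φ (x + z)) = sg (φ z) * sg (b x z) := fun z x => by
    rw [hφ, sg_add, sg_add]
    calc sg (φ x) * (sg (φ x) * sg (φ z) * sg (b x z))
        = (sg (φ x) * sg (φ x)) * (sg (φ z) * sg (b x z)) := by ring
      _ = _ := by rw [sg_sq, one_mul]
  rw [e1]
  simp only [e2]
  simp only [← Finset.mul_sum]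
  rw [Finset.sum_eq_single 0]
  · have h4 : ∀ x, b x 0 = 0 := fun x => by
      have h5 := hφ x 0
      rw [add_zero, h0, add_zero] at h5
      have : ∀ a c : ZMod 2, a = a + c → c = 0 := by decide
      exact this _ _ h5
    rw [h0, sg_zero, one_mul]
    simp [h4, sg_zero]
  · intro z _ hz
    have h5 : ∃ x, b x z ≠ 0 := by
      by_contra h6
      push Not at h6
      exact hz (hn z h6)
    obtain ⟨x, hx⟩ := h5
    have h6 : ∑ x, sg (b x z) = 0 := gs_add_eq_zero (fun x => b x z) (fun x y => hb x y z) hx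
    rw [h6, mul_zero]
  · intro h
    exact absurd (Finset.mem_univ _) h

/-- **The form of `M ⊔ M'` takes the value one on more than half of the elements.** -/
theorem majority (hφ : ∀ x y, φ (x + y) = φ x + φ y + b x y)
    (hb : ∀ x y z, b (x + y) z = b x z + b y z) (hn : ∀ z, (∀ x, b x z = 0) → z = 0)
    {u : V} (hu : φ u = 1) {ψ : V × V → ZMod 2}
    (hψ : ∀ x y, ψ (x, y) = φ x + (φ y + b y u)) :
    Nat.card (V × V) < 2 * Nat.card {p : V × V // ψ p = 1} := by
  classical
  have h1 : gs ψ = - (gs φ * gs φ) := by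
    have e1 : gs ψ = ∑ x, ∑ y, sg (φ x) * sg (φ y + b y u) := by
      rw [gs, Fintype.sum_prod_type]
      refine Finset.sum_congr rfl fun x _ => Finset.sum_congr rfl fun y _ => ?_
      rw [hψ, sg_add]
    have e2 : ∀ y, φ y + b y u = φ (y + u) + 1 := fun y => by
      rw [hφ, hu]
      have : ∀ a c : ZMod 2, a + c = a + 1 + c + 1 := by decide
      exact this _ _
    have e3 : ∑ y, sg (φ y + b y u) = - gs φ := by
      have h3 : ∀ y, sg (φ y + b y u) = - sg (φ (y + u)) := fun y => by
        rw [e2, sg_add, sg_one]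
        ring
      simp only [h3]
      rw [Finset.sum_neg_distrib, neg_inj]
      exact Fintype.sum_equiv (Equiv.addRight u) (fun x => sg (φ (x + u))) (fun x => sg (φ x))
        (fun x => rfl)
    rw [e1]
    simp only [← Finset.mul_sum]
    rw [← Finset.sum_mul, e3]
    rw [gs]
    ring
  have h2 := gs_sq hφ hb hn
  have h3 : 0 < Fintype.card V := Fintype.card_pos_iff.mpr ⟨0⟩
  have h4 := gs_eq ψ
  rw [Nat.card_eq_fintype_card]
  have h5 : gs ψ < 0 := by
    rw [h1, h2]
    have : (0 : ℤ) < Fintype.card V := by exact_mod_cast h3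
    linarith
  have h6 : (Fintype.card (V × V) : ℤ) < 2 * (Nat.card {p : V × V // ψ p = 1} : ℤ) := by
    linarith
  exact_mod_cast h6

end

end Vale.Agent.P263.FR
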