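import Mathlib.Topology.Compactification.OnePoint.Basic
import Mathlib.Topology.Homotopy.Basic
import Mathlib.Analysis.Normed.Module.FiniteDimension

/-!
# P263, block G of the framed version: homotopies of maps to `X⁺` which agree near the zeros

`Z` a compact space, `X` a finite-dimensional normed space.

* `fr D y = y/D` if `0 < D`, `∞` otherwise;
* `loc O ρ h = (ρ - |h|)⁻¹ h` on `O` where `|h| < ρ`, and `∞` elsewhere;
* `germ_homotopic` : two maps `Z → X⁺` are homotopic if their zeros lie in the interior of `O` and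
  they are connected on `O` by a homotopy of maps to `X` without further zeros.
-/

open Filter Topology OnePoint

namespace Vale.Agent.P263.FR

variable {X : Type*} [NormedAddCommGroup X] [NormedSpace ℝ X] [FiniteDimensional ℝ X]

section infty

omit [NormedSpace ℝ X] [FiniteDimensional ℝ X] in
theorem tendsto_infty [ProperSpace X] {T : Type*} {l : Filter T} {F : T → OnePoint X}
    (h : ∀ R : ℝ, ∀ᶠ t in l, F t = ∞ ∨ ∃ x : X, F t = (x : OnePoint X) ∧ R < ‖x‖) :
    Tendsto F l (𝓝 ∞) := by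
  rw [(OnePoint.hasBasis_nhds_infty (X := X)).tendsto_right_iff]
  rintro s ⟨-, hs⟩
  obtain ⟨R, hR⟩ := hs.isBounded.subset_closedBall (0 : X)
  filter_upwards [h R] with t ht
  rcases ht with ht | ⟨x, ht, hx⟩
  · exact Or.inr ht
  · refine Or.inl ⟨x, fun hxs => ?_, ht.symm⟩
    have := hR hxs
    rw [mem_closedBall_zero_iff] at this
    exact absurd hx (not_lt.2 this)

omit [NormedSpace ℝ X] [FiniteDimensional ℝ X] in
theorem eventually_infty [ProperSpace X] (R : ℝ) :
    ∀ᶠ y : OnePoint X in 𝓝 ∞, y = ∞ ∨ ∃ x : X, y = (x : OnePoint X) ∧ R < ‖x‖ := by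
  have h1 : (((↑) : X → OnePoint X) '' (Metric.closedBall (0 : X) R)ᶜ ∪ {∞}) ∈ 𝓝 (∞ : OnePoint X) :=
    (OnePoint.hasBasis_nhds_infty (X := X)).mem_of_mem
      (i := Metric.closedBall (0 : X) R) ⟨Metric.isClosed_closedBall, isCompact_closedBall _ _⟩
  filter_upwards [h1] with y hy
  rcases hy with ⟨x, hx, rfl⟩ | hy
  · refine Or.inr ⟨x, rfl, ?_⟩
    rw [Set.mem_compl_iff, mem_closedBall_zero_iff, not_le] at hx
    exact hx
  · exact Or.inl hy

end infty

open scoped Classical in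
/-- `y/D` if `0 < D`, `∞` otherwise -/
noncomputable def fr (D : ℝ) (y : X) : OnePoint X := if 0 < D then ((D⁻¹ • y : X) : OnePoint X) else ∞

omit [FiniteDimensional ℝ X] in
theorem fr_pos {D : ℝ} (h : 0 < D) (y : X) : fr D y = ((D⁻¹ • y : X) : OnePoint X) := if_pos h

omit [FiniteDimensional ℝ X] in
theorem fr_nonpos {D : ℝ} (h : D ≤ 0) (y : X) : fr D y = ∞ := if_neg (not_lt.2 h)

theorem tendsto_fr {T : Type*} {l : Filter T} {D : T → ℝ} {y : T → X} {d : ℝ} {v : X}
    (hD : Tendsto D l (𝓝 d)) (hy : Tendsto y l (𝓝 v)) (h : d = 0 → v ≠ 0) :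
    Tendsto (fun t => fr (D t) (y t)) l (𝓝 (fr d v)) := by
  rcases lt_trichotomy d 0 with h1 | h1 | h1
  · rw [fr_nonpos h1.le]
    refine tendsto_const_nhds.congr' ?_
    filter_upwards [hD.eventually_lt_const h1] with t ht
    exact (fr_nonpos ht.le _).symm
  · have : ProperSpace X := FiniteDimensional.proper_real X
    rw [h1] at hD
    rw [fr_nonpos h1.le]
    have hv : 0 < ‖v‖ := norm_pos_iff.2 (h h1)
    refine tendsto_infty fun R => ?_
    have h2 : ∀ᶠ t in l, ‖v‖ / 2 < ‖y t‖ :=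
      (hy.norm).eventually_const_lt (by linarith)
    have h3 : ∀ᶠ t in l, D t < ‖v‖ / 2 / (|R| + 1) :=
      hD.eventually_lt_const (by positivity)
    filter_upwards [h2, h3] with t h2 h3
    by_cases h4 : 0 < D t
    · refine Or.inr ⟨(D t)⁻¹ • y t, fr_pos h4 _, ?_⟩
      rw [norm_smul, norm_inv, Real.norm_eq_abs, abs_of_pos h4, inv_mul_eq_div, lt_div_iff₀ h4]
      rw [lt_div_iff₀ (by positivity)] at h3
      nlinarith [le_abs_self R, mul_le_mul_of_nonneg_right (le_abs_self R) h4.le]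
    · exact Or.inl (fr_nonpos (not_lt.1 h4) _)
  · rw [fr_pos h1]
    have h2 : Tendsto (fun t => (((D t)⁻¹ • y t : X) : OnePoint X)) l
        (𝓝 ((d⁻¹ • v : X) : OnePoint X)) :=
      (OnePoint.continuous_coe.tendsto _).comp ((hD.inv₀ h1.ne').smul hy)
    refine h2.congr' ?_
    filter_upwards [hD.eventually_const_lt h1] with t ht
    exact (fr_pos ht _).symm

section loc

variable {Z : Type*} [TopologicalSpace Z]

open scoped Classical in
/-- `(ρ - |h|)⁻¹ h` on `O` where `|h| < ρ`, and `∞` elsewhere -/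
noncomputable def loc (O : Set Z) (ρ : ℝ) (h : Z → X) (z : Z) : OnePoint X :=
  if z ∈ O then fr (ρ - ‖h z‖) (h z) else ∞

omit [FiniteDimensional ℝ X] [TopologicalSpace Z] in
theorem loc_of_mem {O : Set Z} {z : Z} (hz : z ∈ O) (ρ : ℝ) (h : Z → X) :
    loc O ρ h z = fr (ρ - ‖h z‖) (h z) := if_pos hz

omit [FiniteDimensional ℝ X] [TopologicalSpace Z] in
theorem loc_of_notMem {O : Set Z} {z : Z} (hz : z ∉ O) (ρ : ℝ) (h : Z → X) :
    loc O ρ h z = ∞ := if_neg hz

theorem continuous_loc {O : Set Z} (hO : IsClosed O) {ρ : ℝ} (hρ : 0 < ρ) {h : Z → X}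
    (hh : ContinuousOn h O) (hf : ∀ z ∈ frontier O, ρ ≤ ‖h z‖) : Continuous (loc O ρ h) := by
  classical
  have e : loc O ρ h = fun z => if z ∈ O then fr (ρ - ‖h z‖) (h z) else ∞ := by
    funext z
    unfold loc
    congr
  rw [e]
  refine continuous_if (p := fun z => z ∈ O) ?_ ?_ continuousOn_const
  · intro z hz
    exact fr_nonpos (by linarith [hf z hz]) _
  · rw [show closure {z | z ∈ O} = O from hO.closure_eq]
    intro z hz
    have h1 : Tendsto (fun z => ρ - ‖h z‖) (𝓝[O] z) (𝓝 (ρ - ‖h z‖)) :=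
      tendsto_const_nhds.sub (hh z hz).norm
    refine tendsto_fr h1 (hh z hz) fun h2 h3 => ?_
    rw [h3, norm_zero] at h2
    linarith

/-- the expansion -/
noncomputable def ex (ρ : ℝ) (τ : ℝ) (y : OnePoint X) : OnePoint X :=
  y.elim ∞ fun v => fr ((1 - τ) + τ * (ρ - ‖v‖)) v

omit [FiniteDimensional ℝ X] in
theorem ex_infty (ρ τ : ℝ) : ex ρ τ (∞ : OnePoint X) = ∞ := rfl

omit [FiniteDimensional ℝ X] in
theorem ex_coe (ρ τ : ℝ) (v : X) :
    ex ρ τ (v : OnePoint X) = fr ((1 - τ) + τ * (ρ - ‖v‖)) v := rfl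

omit [FiniteDimensional ℝ X] in
theorem ex_zero (ρ : ℝ) (y : OnePoint X) : ex ρ 0 y = y := by
  induction y using OnePoint.rec with
  | infty => rfl
  | coe v =>
    rw [ex_coe, fr_pos (by norm_num)]
    norm_num

theorem continuous_ex {ρ : ℝ} (hρ : 0 < ρ) :
    Continuous fun q : unitInterval × OnePoint X => ex ρ q.1 q.2 := by
  have : ProperSpace X := FiniteDimensional.proper_real X
  rw [continuous_iff_continuousAt]
  rintro ⟨τ, y⟩
  induction y using OnePoint.rec with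
  | infty =>
    show Tendsto (fun q : unitInterval × OnePoint X => ex ρ q.1 q.2) _ (𝓝 ∞)
    refine tendsto_infty fun R => ?_
    rw [nhds_prod_eq]
    have h1 := (eventually_infty (X := X) (|R| * (1 + ρ))).prod_inr (𝓝 τ)
    filter_upwards [h1] with q hq
    obtain ⟨σ, y⟩ := q
    rcases hq with hq | ⟨x, hq, hx⟩
    · left
      show ex ρ σ y = ∞
      rw [show y = ∞ from hq, ex_infty]
    · by_cases h4 : 0 < (1 - (σ : ℝ)) + σ * (ρ - ‖x‖)
      · refine Or.inr ⟨((1 - (σ : ℝ)) + σ * (ρ - ‖x‖))⁻¹ • x, ?_, ?_⟩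
        · show ex ρ σ y = _
          rw [show y = (x : OnePoint X) from hq, ex_coe, fr_pos h4]
        · rw [norm_smul, norm_inv, Real.norm_eq_abs, abs_of_pos h4, inv_mul_eq_div, lt_div_iff₀ h4]
          have h5 : (1 - (σ : ℝ)) + σ * (ρ - ‖x‖) ≤ 1 + ρ := by
            nlinarith [σ.2.1, σ.2.2, norm_nonneg x, mul_nonneg σ.2.1 (norm_nonneg x),
              mul_le_mul_of_nonneg_right σ.2.2 hρ.le]
          calc R * ((1 - (σ : ℝ)) + σ * (ρ - ‖x‖))
              ≤ |R| * ((1 - (σ : ℝ)) + σ * (ρ - ‖x‖)) :=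
                mul_le_mul_of_nonneg_right (le_abs_self R) h4.le
            _ ≤ |R| * (1 + ρ) := mul_le_mul_of_nonneg_left h5 (abs_nonneg R)
            _ < ‖x‖ := hx
      · refine Or.inl ?_
        show ex ρ σ y = ∞
        rw [show y = (x : OnePoint X) from hq, ex_coe, fr_nonpos (not_lt.1 h4)]
  | coe v =>
    have h1 : ∀ᶠ q : unitInterval × OnePoint X in 𝓝 (τ, (v : OnePoint X)), ∃ x : X, q.2 = x := by
      have : ∀ᶠ y : OnePoint X in 𝓝 (v : OnePoint X), y ≠ ∞ :=
        isOpen_ne.mem_nhds (OnePoint.coe_ne_infty v)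
      rw [nhds_prod_eq]
      filter_upwards [this.prod_inr (𝓝 τ)] with q hq
      obtain ⟨x, hx⟩ := OnePoint.ne_infty_iff_exists.1 hq
      exact ⟨x, hx.symm⟩
    have h2 : IsOpenEmbedding (fun q : unitInterval × X => (q.1, (q.2 : OnePoint X))) :=
      IsOpenEmbedding.id.prodMap OnePoint.isOpenEmbedding_coe
    have h3 : ContinuousAt (fun q : unitInterval × OnePoint X => ex ρ q.1 q.2)
        ((fun q : unitInterval × X => (q.1, (q.2 : OnePoint X))) (τ, v)) := by
      rw [← h2.continuousAt_iff]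
      show Tendsto _ _ _
      refine tendsto_fr (Continuous.tendsto (by fun_prop) _) (Continuous.tendsto (by fun_prop) _) ?_
      intro h4 h5
      simp only at h4 h5
      rw [h5, norm_zero, sub_zero] at h4
      rcases τ.2.1.eq_or_lt with h6 | h6
      · rw [← h6] at h4
        norm_num at h4
      · have h7 := mul_pos h6 hρ
        have h8 := τ.2.2
        linarith
    exact h3

omit [NormedSpace ℝ X] [FiniteDimensional ℝ X] in
theorem homotopicRel_of {f g : C(Z, OnePoint X)} {S : Set Z}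
    (F : unitInterval × Z → OnePoint X) (hF : Continuous F) (h0 : ∀ z, F (0, z) = f z)
    (h1 : ∀ z, F (1, z) = g z) (hS : ∀ τ, ∀ z ∈ S, F (τ, z) = f z) : f.HomotopicRel g S :=
  ⟨{ toFun := F
     continuous_toFun := hF
     map_zero_left := h0
     map_one_left := h1
     prop' := fun τ z hz => hS τ z hz }⟩

theorem homotopicRel_loc {f : C(Z, OnePoint X)} {O : Set Z} (hO : IsClosed O) {ρ : ℝ} (hρ : 0 < ρ)
    {h : Z → X} (hh : ContinuousOn h O) (hf : ∀ z ∈ frontier O, ρ ≤ ‖h z‖)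
    (h1 : ∀ z ∈ O, f z = (h z : OnePoint X))
    (h2 : ∀ z ∉ O, f z = ∞ ∨ ∃ x : X, f z = (x : OnePoint X) ∧ ρ ≤ ‖x‖) {S : Set Z}
    (hS : ∀ z ∈ S, f z = ∞) :
    f.HomotopicRel ⟨loc O ρ h, continuous_loc hO hρ hh hf⟩ S := by
  refine homotopicRel_of (fun q => ex ρ q.1 (f q.2)) ((continuous_ex hρ).comp
    (by fun_prop : Continuous fun q : unitInterval × Z => (q.1, f q.2))) (fun z => ex_zero ρ _) ?_ ?_
  · intro z
    show ex ρ ((1 : unitInterval) : ℝ) (f z) = loc O ρ h z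
    by_cases hz : z ∈ O
    · rw [loc_of_mem hz, h1 z hz, ex_coe]
      simp
    · rw [loc_of_notMem hz]
      rcases h2 z hz with h3 | ⟨x, h3, h4⟩
      · rw [h3, ex_infty]
      · rw [h3, ex_coe]
        refine fr_nonpos ?_ _
        simp
        exact h4
  · intro τ z hz
    show ex ρ τ (f z) = f z
    rw [hS z hz, ex_infty]

theorem exists_rho [CompactSpace Z] (f : C(Z, OnePoint X)) {C : Set Z} (hC : IsClosed C)
    (h : ∀ z ∈ C, f z ≠ ((0 : X) : OnePoint X)) :
    ∃ ρ > (0 : ℝ), ∀ z ∈ C, f z = ∞ ∨ ∃ x : X, f z = (x : OnePoint X) ∧ ρ ≤ ‖x‖ := by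
  have : ProperSpace X := FiniteDimensional.proper_real X
  have h1 : IsClosed (f '' C) := (hC.isCompact.image f.continuous).isClosed
  have h2 : ((↑) : X → OnePoint X) ⁻¹' (f '' C)ᶜ ∈ 𝓝 (0 : X) := by
    refine OnePoint.continuous_coe.continuousAt.preimage_mem_nhds (h1.isOpen_compl.mem_nhds ?_)
    rintro ⟨z, hz, hz0⟩
    exact h z hz hz0
  obtain ⟨ρ, hρ, hb⟩ := Metric.mem_nhds_iff.1 h2
  refine ⟨ρ, hρ, fun z hz => ?_⟩
  by_cases h3 : f z = ∞
  · exact Or.inl h3
  · obtain ⟨x, hx⟩ := OnePoint.ne_infty_iff_exists.1 h3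
    refine Or.inr ⟨x, hx.symm, ?_⟩
    by_contra h4
    have h5 : x ∈ Metric.ball (0 : X) ρ := by
      rw [mem_ball_zero_iff]
      exact not_le.1 h4
    exact hb h5 ⟨z, hz, hx.symm⟩

/-- **Homotopy of germs.** -/
theorem germ_homotopic [CompactSpace Z] {f g : C(Z, OnePoint X)} {O : Set Z} (hO : IsClosed O)
    (H : unitInterval × Z → X) (hH : ContinuousOn H {q | q.2 ∈ O})
    (h0 : ∀ z ∈ O, f z = (H (0, z) : OnePoint X)) (h1 : ∀ z ∈ O, g z = (H (1, z) : OnePoint X))
    (hne : ∀ τ, ∀ z ∈ O, H (τ, z) = 0 → z ∈ interior O)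
    (hf : ∀ z, f z = ((0 : X) : OnePoint X) → z ∈ interior O)
    (hg : ∀ z, g z = ((0 : X) : OnePoint X) → z ∈ interior O) {S : Set Z}
    (hfS : ∀ z ∈ S, f z = ∞) (hgS : ∀ z ∈ S, g z = ∞) : f.HomotopicRel g S := by
  have hC : IsClosed (interior O)ᶜ := isOpen_interior.isClosed_compl
  obtain ⟨ρ₁, hρ₁, k₁⟩ := exists_rho f hC fun z hz hz' => hz (hf z hz')
  obtain ⟨ρ₂, hρ₂, k₂⟩ := exists_rho g hC fun z hz hz' => hz (hg z hz')
  -- the frontier
  have hQ : IsClosed {q : unitInterval × Z | q.2 ∈ O} := hO.preimage continuous_snd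
  have hfr : IsCompact {q : unitInterval × Z | q.2 ∈ frontier O} :=
    (isClosed_frontier.preimage continuous_snd).isCompact
  have hfrO : ∀ z ∈ frontier O, z ∈ O := fun z hz => by
    have := hz.1
    rwa [hO.closure_eq] at this
  obtain ⟨ρ₃, hρ₃, k₃⟩ : ∃ ρ > (0 : ℝ), ∀ q : unitInterval × Z, q.2 ∈ frontier O → ρ ≤ ‖H q‖ := by
    by_cases hn : ({q : unitInterval × Z | q.2 ∈ frontier O}).Nonempty
    · obtain ⟨q, hq, hq'⟩ := hfr.exists_isMinOn hn
        ((hH.mono fun q hq => hfrO _ hq).norm)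
      refine ⟨‖H q‖, ?_, fun q' h' => hq' h'⟩
      rw [gt_iff_lt, norm_pos_iff]
      intro h4
      exact hq.2 (hne q.1 q.2 (hfrO _ hq) h4)
    · refine ⟨1, one_pos, fun q hq => ?_⟩
      exact absurd ⟨q, hq⟩ hn
  obtain ⟨ρ, hρ⟩ : ∃ ρ, ρ = min ρ₁ (min ρ₂ ρ₃) := ⟨_, rfl⟩
  have hρ0 : 0 < ρ := by rw [hρ]; exact lt_min hρ₁ (lt_min hρ₂ hρ₃)
  have l1 : ρ ≤ ρ₁ := by rw [hρ]; exact min_le_left _ _
  have l2 : ρ ≤ ρ₂ := by rw [hρ]; exact (min_le_right _ _).trans (min_le_left _ _)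
  have l3 : ρ ≤ ρ₃ := by rw [hρ]; exact (min_le_right _ _).trans (min_le_right _ _)
  have c : ∀ τ : unitInterval, ContinuousOn (fun z => H (τ, z)) O := fun τ =>
    hH.comp (by fun_prop) fun z hz => hz
  have m0 : f.HomotopicRel ⟨loc O ρ fun z => H (0, z), continuous_loc hO hρ0 (c 0)
      fun z hz => l3.trans (k₃ (0, z) hz)⟩ S := by
    refine homotopicRel_loc hO hρ0 (c 0) (fun z hz => l3.trans (k₃ (0, z) hz)) h0
      (fun z hz => ?_) hfS
    rcases k₁ z (fun h => hz (interior_subset h)) with h | ⟨x, h, h'⟩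
    · exact Or.inl h
    · exact Or.inr ⟨x, h, l1.trans h'⟩
  have m1 : g.HomotopicRel ⟨loc O ρ fun z => H (1, z), continuous_loc hO hρ0 (c 1)
      fun z hz => l3.trans (k₃ (1, z) hz)⟩ S := by
    refine homotopicRel_loc hO hρ0 (c 1) (fun z hz => l3.trans (k₃ (1, z) hz)) h1
      (fun z hz => ?_) hgS
    rcases k₂ z (fun h => hz (interior_subset h)) with h | ⟨x, h, h'⟩
    · exact Or.inl h
    · exact Or.inr ⟨x, h, l2.trans h'⟩
  refine (m0.trans ?_).trans m1.symm
  have hfr' : ∀ q ∈ frontier {q : unitInterval × Z | q.2 ∈ O}, q.2 ∈ frontier O := by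
    intro q hq
    have : {q : unitInterval × Z | q.2 ∈ O} = Prod.snd ⁻¹' O := rfl
    rw [this] at hq
    exact continuous_snd.frontier_preimage_subset O hq
  refine homotopicRel_of (loc {q : unitInterval × Z | q.2 ∈ O} ρ H)
    (continuous_loc hQ hρ0 hH fun q hq => l3.trans (k₃ q (hfr' q hq))) ?_ ?_ ?_
  · intro z
    by_cases hz : z ∈ O
    · rw [loc_of_mem (show ((0 : unitInterval), z) ∈ {q : unitInterval × Z | q.2 ∈ O} from hz)]
      exact (loc_of_mem hz ρ fun z => H (0, z)).symm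
    · rw [loc_of_notMem (show ((0 : unitInterval), z) ∉ {q : unitInterval × Z | q.2 ∈ O} from hz)]
      exact (loc_of_notMem hz ρ fun z => H (0, z)).symm
  · intro z
    by_cases hz : z ∈ O
    · rw [loc_of_mem (show ((1 : unitInterval), z) ∈ {q : unitInterval × Z | q.2 ∈ O} from hz)]
      exact (loc_of_mem hz ρ fun z => H (1, z)).symm
    · rw [loc_of_notMem (show ((1 : unitInterval), z) ∉ {q : unitInterval × Z | q.2 ∈ O} from hz)]
      exact (loc_of_notMem hz ρ fun z => H (1, z)).symm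
  · intro τ z hz
    have hzO : z ∉ O := by
      intro h
      have := h0 z h
      rw [hfS z hz] at this
      exact OnePoint.infty_ne_coe _ this
    rw [loc_of_notMem (show (τ, z) ∉ {q : unitInterval × Z | q.2 ∈ O} from hzO)]
    exact (loc_of_notMem hzO ρ fun z => H (0, z)).symm

end loc

end Vale.Agent.P263.FR
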