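import Mathlib.Topology.Compactification.OnePoint.Basic
import Mathlib.Analysis.Normed.Module.FiniteDimension
import Mathlib.Tactic

/-!
# P263, block F: continuity of maps to one point compactifications

* `qn v = ∑ v i ^ 2`.
* `tendsto_inftyP` : the criterion for convergence to `∞` in `(ℝᴷ × P)⁺`, `P` compact.
* `prT w p` : the point `(w, p)` of `(ℝᴷ × P)⁺`, `∞` if `w = ∞`; `continuous_prT`.
* `Psi s y` : the map `y ↦ y / (1 - s |y|²)` from the ball of radius `1 / √s` onto `ℝᴷ`, `∞` outside;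
  `continuous_Psi`.
* `cut C g` : `g` on `C`, `∞` outside; `continuous_cut`.
-/

open OnePoint Topology Filter

namespace Vale.Agent.P263.FR

/-- `|v|²` -/
def qn {K : ℕ} (v : Fin K → ℝ) : ℝ := ∑ i, v i ^ 2

section qn

variable {K : ℕ}

theorem qn_nonneg (v : Fin K → ℝ) : 0 ≤ qn v := Finset.sum_nonneg fun _ _ => sq_nonneg _

theorem qn_zero : qn (0 : Fin K → ℝ) = 0 := by simp [qn]

theorem qn_eq_zero {v : Fin K → ℝ} : qn v = 0 ↔ v = 0 := by
  constructor
  · intro h
    have h1 := (Finset.sum_eq_zero_iff_of_nonneg (fun i _ => sq_nonneg (v i))).1 h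
    funext i
    exact pow_eq_zero_iff (n := 2) (by norm_num) |>.1 (h1 i (Finset.mem_univ i))
  · rintro rfl
    exact qn_zero

theorem qn_pos {v : Fin K → ℝ} (h : v ≠ 0) : 0 < qn v :=
  lt_of_le_of_ne (qn_nonneg v) fun h' => h (qn_eq_zero.1 h'.symm)

theorem qn_smul (r : ℝ) (v : Fin K → ℝ) : qn (r • v) = r ^ 2 * qn v := by
  simp only [qn, Pi.smul_apply, smul_eq_mul, mul_pow, Finset.mul_sum]

theorem continuous_qn : Continuous (qn : (Fin K → ℝ) → ℝ) :=
  continuous_finsetSum _ fun i _ => (continuous_apply i).pow 2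

theorem abs_le_of_qn {v : Fin K → ℝ} {R : ℝ} (h : qn v ≤ R ^ 2) (hR : 0 ≤ R) (i : Fin K) :
    |v i| ≤ R := by
  apply abs_le_of_sq_le_sq _ hR
  exact (Finset.single_le_sum (f := fun i => v i ^ 2) (fun _ _ => sq_nonneg _)
    (Finset.mem_univ i)).trans h

theorem norm_le_of_qn {v : Fin K → ℝ} {R : ℝ} (h : qn v ≤ R ^ 2) (hR : 0 ≤ R) : ‖v‖ ≤ R := by
  rw [pi_norm_le_iff_of_nonneg hR]
  exact fun i => abs_le_of_qn h hR i

theorem isCompact_qn (R : ℝ) : IsCompact {v : Fin K → ℝ | qn v ≤ R} := by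
  apply Metric.isCompact_of_isClosed_isBounded (isClosed_le continuous_qn continuous_const)
  rw [isBounded_iff_forall_norm_le]
  refine ⟨Real.sqrt |R|, fun v hv => norm_le_of_qn ?_ (Real.sqrt_nonneg _)⟩
  rw [Real.sq_sqrt (abs_nonneg R)]
  exact le_trans hv (le_abs_self R)

end qn

/-! ### convergence to infinity -/

section tend

variable {X : Type*} [TopologicalSpace X]

/-- convergence to `∞` for a proper function `ν` -/
theorem tendsto_infty_of {ν : X → ℝ} (hν : Continuous ν) {ι : Type*} {l : Filter ι}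
    {g : ι → OnePoint X} (h : ∀ R : ℝ, ∀ᶠ i in l, ∀ x : X, g i = (x : OnePoint X) → R < ν x) :
    Tendsto g l (𝓝 ∞) := by
  rw [(OnePoint.hasBasis_nhds_infty (X := X)).tendsto_right_iff]
  rintro s ⟨-, hs⟩
  obtain ⟨R, hR⟩ : ∃ R, ∀ x ∈ s, ν x ≤ R := by
    obtain ⟨R, hR⟩ := (hs.image hν).bddAbove
    exact ⟨R, fun x hx => hR ⟨x, hx, rfl⟩⟩
  filter_upwards [h R] with i hi
  rcases h1 : g i with _ | x
  · right
    rfl
  · left
    refine ⟨x, fun hx => ?_, rfl⟩
    exact absurd (hR x hx) (not_lt.2 (hi x h1).le |> fun h => by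
      intro h2
      exact absurd h2 (not_le.2 (hi x h1)))

theorem eventually_of_tendsto_infty {ν : X → ℝ} (hν : Continuous ν)
    (hc : ∀ R, IsCompact {x | ν x ≤ R}) {ι : Type*} {l : Filter ι}
    {g : ι → OnePoint X} (h : Tendsto g l (𝓝 ∞)) (R : ℝ) :
    ∀ᶠ i in l, ∀ x : X, g i = (x : OnePoint X) → R < ν x := by
  rw [(OnePoint.hasBasis_nhds_infty (X := X)).tendsto_right_iff] at h
  filter_upwards [h {x | ν x ≤ R} ⟨isClosed_le hν continuous_const, hc R⟩] with i hi x hx
  by_contra hlt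
  rw [hx] at hi
  rcases hi with ⟨y, hy, hyx⟩ | hi
  · rw [OnePoint.coe_eq_coe] at hyx
    rw [hyx] at hy
    exact hy (not_lt.1 hlt)
  · exact OnePoint.coe_ne_infty x hi

end tend

section prT

variable {K : ℕ} {P : Type*}

section

variable [TopologicalSpace P]

theorem tendsto_inftyP {ι : Type*} {l : Filter ι} {g : ι → OnePoint ((Fin K → ℝ) × P)}
    (h : ∀ R : ℝ, ∀ᶠ i in l, ∀ (v : Fin K → ℝ) (p : P),
      g i = ((v, p) : (Fin K → ℝ) × P) → R < qn v) : Tendsto g l (𝓝 ∞) :=
  tendsto_infty_of (ν := fun x : (Fin K → ℝ) × P => qn x.1) (continuous_qn.comp continuous_fst)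
    fun R => (h R).mono fun _ hi x hx => hi x.1 x.2 hx

theorem tendsto_inftyS {ι : Type*} {l : Filter ι} {g : ι → OnePoint (Fin K → ℝ)}
    (h : ∀ R : ℝ, ∀ᶠ i in l, ∀ v : Fin K → ℝ, g i = (v : OnePoint (Fin K → ℝ)) → R < qn v) :
    Tendsto g l (𝓝 ∞) := tendsto_infty_of continuous_qn h

theorem eventually_of_tendsto {ι : Type*} {l : Filter ι} {g : ι → OnePoint (Fin K → ℝ)}
    (h : Tendsto g l (𝓝 ∞)) (R : ℝ) :
    ∀ᶠ i in l, ∀ v : Fin K → ℝ, g i = (v : OnePoint (Fin K → ℝ)) → R < qn v :=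
  eventually_of_tendsto_infty continuous_qn isCompact_qn h R

end

/-- the point `(w, p)`, `∞` if `w = ∞` -/
def prT (w : OnePoint (Fin K → ℝ)) (p : P) : OnePoint ((Fin K → ℝ) × P) :=
  w.elim ∞ fun v => (((v, p) : (Fin K → ℝ) × P) : OnePoint ((Fin K → ℝ) × P))

@[simp] theorem prT_infty (p : P) : prT (∞ : OnePoint (Fin K → ℝ)) p = ∞ := rfl

@[simp] theorem prT_coe (v : Fin K → ℝ) (p : P) :
    prT (v : OnePoint (Fin K → ℝ)) p = (((v, p) : (Fin K → ℝ) × P) : OnePoint ((Fin K → ℝ) × P)) :=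
  rfl

theorem map_fst_prT (w : OnePoint (Fin K → ℝ)) (p : P) :
    OnePoint.map (fun x : (Fin K → ℝ) × P => x.1) (prT w p) = w := by
  induction w using OnePoint.rec <;> rfl

theorem exists_prT [Nonempty P] (z : OnePoint ((Fin K → ℝ) × P)) :
    ∃ p, prT (OnePoint.map (fun x : (Fin K → ℝ) × P => x.1) z) p = z := by
  induction z using OnePoint.rec with
  | infty => exact ⟨Classical.arbitrary P, rfl⟩
  | coe z => exact ⟨z.2, rfl⟩

variable [TopologicalSpace P]

/-- **the pairing lemma** -/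
theorem continuousOn_prT {Z : Type*} [TopologicalSpace Z] {S : Set Z}
    {A : Z → OnePoint (Fin K → ℝ)} (hA : ContinuousOn A S) {p : Z → P}
    (hp : ∀ z ∈ S, A z ≠ ∞ → ContinuousWithinAt p S z) :
    ContinuousOn (fun z => prT (A z) (p z)) S := by
  intro z hz
  rcases h : A z with _ | v
  · have h1 : prT (A z) (p z) = ∞ := by rw [h]; rfl
    unfold ContinuousWithinAt
    change Tendsto (fun z => prT (A z) (p z)) (𝓝[S] z) (𝓝 (prT (A z) (p z)))
    rw [h1]
    apply tendsto_inftyP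
    intro R
    have h2 : Tendsto A (𝓝[S] z) (𝓝 ∞) := by
      have := hA z hz
      unfold ContinuousWithinAt at this
      rw [h] at this
      exact this
    filter_upwards [eventually_of_tendsto h2 R] with y hy v q hvq
    apply hy v
    have h3 := congrArg (OnePoint.map fun x : (Fin K → ℝ) × P => x.1) hvq
    rw [map_fst_prT] at h3
    exact h3
  · have hne : A z ≠ ∞ := by rw [h]; exact OnePoint.coe_ne_infty v
    have h2 : Tendsto A (𝓝[S] z) (𝓝 ((v : Fin K → ℝ) : OnePoint (Fin K → ℝ))) := by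
      have := hA z hz
      unfold ContinuousWithinAt at this
      rw [h] at this
      exact this
    have h3 : Tendsto (fun y => (A y, p y)) (𝓝[S] z)
        (𝓝 (((v : Fin K → ℝ) : OnePoint (Fin K → ℝ)), p z)) := by
      rw [nhds_prod_eq]
      exact h2.prodMk (hp z hz hne)
    have h4 : Tendsto (fun x : OnePoint (Fin K → ℝ) × P => prT x.1 x.2)
        (𝓝 (((v : Fin K → ℝ) : OnePoint (Fin K → ℝ)), p z))
        (𝓝 (prT ((v : Fin K → ℝ) : OnePoint (Fin K → ℝ)) (p z))) := by
      rw [nhds_prod_eq, OnePoint.nhds_coe_eq, ← Filter.map_id (f := 𝓝 (p z)), Filter.prod_map_map_eq,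
        tendsto_map'_iff, ← nhds_prod_eq]
      exact (OnePoint.continuous_coe (X := (Fin K → ℝ) × P)).continuousAt.comp'
        (f := fun x : (Fin K → ℝ) × P => x) continuousAt_id
    have h5 := h4.comp h3
    unfold ContinuousWithinAt
    change Tendsto (fun z => prT (A z) (p z)) (𝓝[S] z) (𝓝 (prT (A z) (p z)))
    rw [h]
    exact h5

theorem continuous_prT {Z : Type*} [TopologicalSpace Z]
    {A : Z → OnePoint (Fin K → ℝ)} (hA : Continuous A) {p : Z → P}
    (hp : ∀ z, A z ≠ ∞ → ContinuousAt p z) :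
    Continuous (fun z => prT (A z) (p z)) := by
  rw [← continuousOn_univ]
  exact continuousOn_prT hA.continuousOn fun z _ hz => (hp z hz).continuousWithinAt

end prT

/-! ### pairs with a partially defined second component -/

section pairS

variable {K : ℕ} {Z N : Type*}

open Classical in
/-- `z ↦ (A z, p z)` for `z ∈ S`, `∞` outside -/
noncomputable def pairS (A : Z → OnePoint (Fin K → ℝ)) (S : Set Z) (p : S → N) (z : Z) :
    OnePoint ((Fin K → ℝ) × N) := if h : z ∈ S then prT (A z) (p ⟨z, h⟩) else ∞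

theorem pairS_of_mem {A : Z → OnePoint (Fin K → ℝ)} {S : Set Z} {p : S → N} {z : Z} (h : z ∈ S) :
    pairS A S p z = prT (A z) (p ⟨z, h⟩) := dif_pos h

theorem pairS_of_notMem {A : Z → OnePoint (Fin K → ℝ)} {S : Set Z} {p : S → N} {z : Z}
    (h : z ∉ S) : pairS A S p z = ∞ := dif_neg h

theorem pairS_infty {A : Z → OnePoint (Fin K → ℝ)} {S : Set Z} {p : S → N} {z : Z}
    (h : A z = ∞) : pairS A S p z = ∞ := by
  by_cases hz : z ∈ S
  · rw [pairS_of_mem hz, h, prT_infty]
  · exact pairS_of_notMem hz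

theorem map_fst_pairS {A : Z → OnePoint (Fin K → ℝ)} {S : Set Z} {p : S → N}
    (hS : ∀ z, A z ≠ ∞ → z ∈ S) (z : Z) :
    OnePoint.map (fun x : (Fin K → ℝ) × N => x.1) (pairS A S p z) = A z := by
  by_cases hz : z ∈ S
  · rw [pairS_of_mem hz, map_fst_prT]
  · rw [pairS_of_notMem hz]
    by_contra h
    exact hz (hS z fun h' => h h'.symm)

variable [TopologicalSpace Z] [TopologicalSpace N]

theorem continuous_pairS {A : Z → OnePoint (Fin K → ℝ)} (hA : Continuous A) {S : Set Z}
    (hS : ∀ z, A z ≠ ∞ → z ∈ S) {p : S → N} (hp : Continuous p) : Continuous (pairS A S p) := by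
  classical
  by_cases hN : Nonempty N
  · let p' : Z → N := fun z => if h : z ∈ S then p ⟨z, h⟩ else Classical.arbitrary N
    have h1 : pairS A S p = fun z => prT (A z) (p' z) := by
      funext z
      by_cases hz : z ∈ S
      · rw [pairS_of_mem hz]
        show _ = prT (A z) (if h : z ∈ S then p ⟨z, h⟩ else Classical.arbitrary N)
        rw [dif_pos hz]
      · rw [pairS_of_notMem hz]
        have : A z = ∞ := by
          by_contra h
          exact hz (hS z h)
        rw [this, prT_infty]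
    rw [h1]
    apply continuous_prT hA
    intro z hz
    have h2 : ContinuousOn p' {z | A z ≠ ∞} := by
      have h3 : ContinuousOn p' S := by
        rw [continuousOn_iff_continuous_domRestrict]
        refine hp.congr fun z => ?_
        show _ = if h : (z : Z) ∈ S then p ⟨z, h⟩ else Classical.arbitrary N
        rw [dif_pos z.2]
      exact h3.mono hS
    exact h2.continuousAt ((isOpen_ne.preimage hA).mem_nhds hz)
  · have h1 : pairS A S p = fun _ => ∞ := by
      funext z
      by_cases hz : z ∈ S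
      · exact absurd ⟨p ⟨z, hz⟩⟩ hN
      · exact pairS_of_notMem hz
    rw [h1]
    exact continuous_const

end pairS

/-! ### the map `Psi` -/

section Psi

variable {K : ℕ}

/-- `y ↦ y / (1 - s |y|²)` on the ball, `∞` outside -/
noncomputable def Psi (s : ℝ) (y : OnePoint (Fin K → ℝ)) : OnePoint (Fin K → ℝ) :=
  y.elim ∞ fun v => if s * qn v < 1 then ((((1 - s * qn v)⁻¹ • v : Fin K → ℝ)) :
    OnePoint (Fin K → ℝ)) else ∞

@[simp] theorem Psi_infty (s : ℝ) : Psi s (∞ : OnePoint (Fin K → ℝ)) = ∞ := rfl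

theorem Psi_coe (s : ℝ) (v : Fin K → ℝ) : Psi s (v : OnePoint (Fin K → ℝ)) =
    if s * qn v < 1 then ((((1 - s * qn v)⁻¹ • v : Fin K → ℝ)) : OnePoint (Fin K → ℝ)) else ∞ :=
  rfl

theorem Psi_of_lt {s : ℝ} {v : Fin K → ℝ} (h : s * qn v < 1) :
    Psi s (v : OnePoint (Fin K → ℝ)) = (((1 - s * qn v)⁻¹ • v : Fin K → ℝ) :
      OnePoint (Fin K → ℝ)) := if_pos h

theorem Psi_of_le {s : ℝ} {v : Fin K → ℝ} (h : 1 ≤ s * qn v) :
    Psi s (v : OnePoint (Fin K → ℝ)) = ∞ := if_neg (not_lt.2 h)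

theorem Psi_ne {s : ℝ} {y : OnePoint (Fin K → ℝ)} (h : Psi s y ≠ ∞) :
    ∃ v : Fin K → ℝ, y = v ∧ s * qn v < 1 := by
  induction y using OnePoint.rec with
  | infty => exact absurd rfl h
  | coe v =>
    refine ⟨v, rfl, ?_⟩
    by_contra h1
    exact h (Psi_of_le (not_lt.1 h1))

@[simp] theorem Psi_zero (y : OnePoint (Fin K → ℝ)) : Psi 0 y = y := by
  induction y using OnePoint.rec with
  | infty => rfl
  | coe v =>
    rw [Psi_of_lt (by rw [zero_mul]; norm_num)]
    simp

theorem Psi_eq_zero {s : ℝ} {y : OnePoint (Fin K → ℝ)} :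
    Psi s y = ((0 : Fin K → ℝ) : OnePoint (Fin K → ℝ)) ↔ y = ((0 : Fin K → ℝ) :
      OnePoint (Fin K → ℝ)) := by
  constructor
  · intro h
    have hne : Psi s y ≠ ∞ := by rw [h]; exact OnePoint.coe_ne_infty _
    obtain ⟨v, rfl, hv⟩ := Psi_ne hne
    rw [Psi_of_lt hv, OnePoint.coe_eq_coe] at h
    rcases smul_eq_zero.1 h with h1 | h1
    · exact absurd h1 (inv_ne_zero (by linarith))
    · rw [h1]
  · rintro rfl
    rw [Psi_of_lt (by rw [qn_zero, mul_zero]; norm_num), smul_zero]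

theorem qn_Psi {s : ℝ} (hs : 0 ≤ s) {y : OnePoint (Fin K → ℝ)} {v w : Fin K → ℝ}
    (hy : y = v) (h : Psi s y = w) : qn v ≤ qn w := by
  subst hy
  have hne : Psi s (v : OnePoint (Fin K → ℝ)) ≠ ∞ := by rw [h]; exact OnePoint.coe_ne_infty _
  obtain ⟨v', hv', hv⟩ := Psi_ne hne
  rw [OnePoint.coe_eq_coe] at hv'
  subst hv'
  rw [Psi_of_lt hv, OnePoint.coe_eq_coe] at h
  rw [← h, qn_smul]
  have h1 : 0 ≤ s * qn v := mul_nonneg hs (qn_nonneg v)
  have h2 : 1 ≤ ((1 - s * qn v)⁻¹) ^ 2 := by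
    have : 1 ≤ (1 - s * qn v)⁻¹ := (one_le_inv₀ (by linarith)).2 (by linarith)
    exact one_le_pow₀ this
  nlinarith [qn_nonneg v]

theorem continuous_Psi : Continuous fun x : ℝ × OnePoint (Fin K → ℝ) => Psi |x.1| x.2 := by
  rw [continuous_iff_continuousAt]
  rintro ⟨s₀, y₀⟩
  unfold ContinuousAt
  induction y₀ using OnePoint.rec with
  | infty =>
    show Tendsto _ _ (𝓝 ∞)
    apply tendsto_inftyS
    intro R
    have h1 : Tendsto (fun x : ℝ × OnePoint (Fin K → ℝ) => x.2)
        (𝓝 (s₀, (∞ : OnePoint (Fin K → ℝ)))) (𝓝 ∞) := continuousAt_snd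
    filter_upwards [eventually_of_tendsto h1 R] with x hx w hw
    have hne : Psi |x.1| x.2 ≠ ∞ := by rw [hw]; exact OnePoint.coe_ne_infty _
    obtain ⟨v, hv, -⟩ := Psi_ne hne
    exact (hx v hv).trans_le (qn_Psi (abs_nonneg _) hv hw)
  | coe v₀ =>
    rw [nhds_prod_eq, OnePoint.nhds_coe_eq, ← Filter.map_id (f := 𝓝 s₀), Filter.prod_map_map_eq,
      tendsto_map'_iff, ← nhds_prod_eq]
    have hc : Continuous fun x : ℝ × (Fin K → ℝ) => |x.1| * qn x.2 :=
      (continuous_abs.comp continuous_fst).mul (continuous_qn.comp continuous_snd)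
    by_cases h : |s₀| * qn v₀ < 1
    · show Tendsto _ _ (𝓝 (Psi |s₀| (v₀ : OnePoint (Fin K → ℝ))))
      rw [Psi_of_lt h]
      have h1 : ∀ᶠ x : ℝ × (Fin K → ℝ) in 𝓝 (s₀, v₀), |x.1| * qn x.2 < 1 :=
        hc.continuousAt.eventually (Iio_mem_nhds h)
      have h2 : Tendsto (fun x : ℝ × (Fin K → ℝ) => (((1 - |x.1| * qn x.2)⁻¹ • x.2 : Fin K → ℝ) :
          OnePoint (Fin K → ℝ))) (𝓝 (s₀, v₀)) (𝓝 (((1 - |s₀| * qn v₀)⁻¹ • v₀ : Fin K → ℝ) :
          OnePoint (Fin K → ℝ))) := by
        apply (OnePoint.continuous_coe (X := Fin K → ℝ)).continuousAt.tendsto.comp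
        apply Tendsto.smul _ continuousAt_snd
        apply Tendsto.inv₀ _ (by linarith)
        exact tendsto_const_nhds.sub hc.continuousAt
      refine h2.congr' ?_
      filter_upwards [h1] with x hx
      exact (Psi_of_lt hx).symm
    · show Tendsto _ _ (𝓝 (Psi |s₀| (v₀ : OnePoint (Fin K → ℝ))))
      rw [Psi_of_le (not_lt.1 h)]
      apply tendsto_inftyS
      intro R
      have hv₀ : 0 < qn v₀ := by
        rcases (qn_nonneg v₀).eq_or_lt with h1 | h1
        · rw [← h1, mul_zero] at h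
          exact absurd one_pos h
        · exact h1
      have hcc : Continuous fun x : ℝ × (Fin K → ℝ) =>
          qn x.2 - R * (max (1 - |x.1| * qn x.2) 0) ^ 2 :=
        (continuous_qn.comp continuous_snd).sub
          (continuous_const.mul (((continuous_const.sub hc).max continuous_const).pow 2))
      have h2 : ∀ᶠ x : ℝ × (Fin K → ℝ) in 𝓝 (s₀, v₀),
          0 < qn x.2 - R * (max (1 - |x.1| * qn x.2) 0) ^ 2 := by
        apply hcc.continuousAt.eventually (Ioi_mem_nhds _)
        show 0 < qn v₀ - R * (max (1 - |s₀| * qn v₀) 0) ^ 2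
        rw [max_eq_right (by linarith [not_lt.1 h])]
        simpa using hv₀
      filter_upwards [h2] with x hx w hw
      change Psi |x.1| (x.2 : OnePoint (Fin K → ℝ)) = w at hw
      have hne : Psi |x.1| (x.2 : OnePoint (Fin K → ℝ)) ≠ ∞ := by
        rw [hw]; exact OnePoint.coe_ne_infty _
      obtain ⟨v, hv, hlt⟩ := Psi_ne hne
      rw [OnePoint.coe_eq_coe] at hv
      rw [← hv] at hlt
      rw [Psi_of_lt hlt, OnePoint.coe_eq_coe] at hw
      rw [← hw, qn_smul]
      have h3 : 0 < 1 - |x.1| * qn x.2 := by linarith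
      rw [max_eq_left h3.le] at hx
      rw [inv_pow, lt_inv_mul_iff₀ (by positivity)]
      nlinarith

/-- the continuity of `Psi` for a nonnegative parameter -/
theorem ContinuousOn.psi {Z : Type*} [TopologicalSpace Z] {S : Set Z} {s : Z → ℝ}
    {A : Z → OnePoint (Fin K → ℝ)} (hs : ContinuousOn s S) (hA : ContinuousOn A S)
    (h0 : ∀ z ∈ S, 0 ≤ s z) : ContinuousOn (fun z => Psi (s z) (A z)) S := by
  have h1 : ContinuousOn (fun z => Psi |s z| (A z)) S :=
    continuous_Psi.comp_continuousOn (hs.prodMk hA)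
  refine h1.congr fun z hz => ?_
  show Psi (s z) (A z) = Psi |s z| (A z)
  rw [abs_of_nonneg (h0 z hz)]

end Psi

/-! ### cutting off -/

section cut

variable {Z Y : Type*}

open Classical in
/-- `g` on `C`, `∞` outside -/
noncomputable def cut (C : Set Z) (g : Z → OnePoint Y) (z : Z) : OnePoint Y :=
  if z ∈ C then g z else ∞

theorem cut_of_mem {C : Set Z} {g : Z → OnePoint Y} {z : Z} (h : z ∈ C) : cut C g z = g z :=
  if_pos h

theorem cut_of_notMem {C : Set Z} {g : Z → OnePoint Y} {z : Z} (h : z ∉ C) : cut C g z = ∞ :=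
  if_neg h

variable [TopologicalSpace Z] [TopologicalSpace Y]

theorem continuous_cut {C U : Set Z} (hC : IsClosed C) (hU : IsOpen U) (hUC : U ⊆ C)
    {g : Z → OnePoint Y} (hg : ContinuousOn g C) (h : ∀ z ∈ C, z ∉ U → g z = ∞) :
    Continuous (cut C g) := by
  rw [← continuousOn_univ]
  have h1 : (Set.univ : Set Z) = C ∪ Uᶜ := by
    ext z
    simp only [Set.mem_univ, Set.mem_union, Set.mem_compl_iff, true_iff]
    by_cases hz : z ∈ U
    · exact Or.inl (hUC hz)
    · exact Or.inr hz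
  rw [h1]
  apply ContinuousOn.union_of_isClosed _ _ hC hU.isClosed_compl
  · exact hg.congr fun z hz => cut_of_mem hz
  · refine (continuousOn_const (c := (∞ : OnePoint Y))).congr fun z hz => ?_
    by_cases hzC : z ∈ C
    · rw [cut_of_mem hzC, h z hzC hz]
    · exact cut_of_notMem hzC

end cut

/-! ### maps with compact support -/

section extC

variable {T X Y : Type*}

open Classical in
/-- `(t, x) ↦ g (t, x)` for `x ∈ C`, `∞` outside -/
noncomputable def extC (C : Set X) (g : T × X → OnePoint Y) (q : T × OnePoint X) : OnePoint Y :=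
  q.2.elim ∞ fun x => if x ∈ C then g (q.1, x) else ∞

@[simp] theorem extC_infty (C : Set X) (g : T × X → OnePoint Y) (t : T) :
    extC C g (t, ∞) = ∞ := rfl

theorem extC_of_mem {C : Set X} {g : T × X → OnePoint Y} {t : T} {x : X} (h : x ∈ C) :
    extC C g (t, (x : OnePoint X)) = g (t, x) := if_pos h

theorem extC_of_notMem {C : Set X} {g : T × X → OnePoint Y} {t : T} {x : X} (h : x ∉ C) :
    extC C g (t, (x : OnePoint X)) = ∞ := if_neg h

theorem extC_ne {C : Set X} {g : T × X → OnePoint Y} {t : T} {z : OnePoint X}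
    (h : extC C g (t, z) ≠ ∞) : ∃ x : X, z = x ∧ x ∈ C ∧ g (t, x) ≠ ∞ := by
  induction z using OnePoint.rec with
  | infty => exact absurd rfl h
  | coe x =>
    by_cases hx : x ∈ C
    · refine ⟨x, rfl, hx, ?_⟩
      rwa [extC_of_mem hx] at h
    · exact absurd (extC_of_notMem hx) h

variable [TopologicalSpace T] [TopologicalSpace X] [TopologicalSpace Y]

theorem continuous_extC {C U : Set X} (hC : IsCompact C) (hC' : IsClosed C) (hU : IsOpen U)
    (hUC : U ⊆ C) {g : T × X → OnePoint Y} (hg : ContinuousOn g (Set.univ ×ˢ C))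
    (h : ∀ t, ∀ x ∈ C, x ∉ U → g (t, x) = ∞) : Continuous (extC C g) := by
  rw [← continuousOn_univ]
  have h1 : (Set.univ : Set (T × OnePoint X)) =
      (Set.univ ×ˢ ((↑) '' C)) ∪ (Set.univ ×ˢ ((↑) '' U : Set (OnePoint X))ᶜ) := by
    ext ⟨t, z⟩
    simp only [Set.mem_univ, Set.mem_union, Set.mem_prod, true_and, Set.mem_compl_iff, true_iff]
    by_cases hz : z ∈ ((↑) '' U : Set (OnePoint X))
    · exact Or.inl (Set.image_mono hUC hz)
    · exact Or.inr hz
  rw [h1]
  have hcl : IsClosed ((↑) '' C : Set (OnePoint X)) :=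
    OnePoint.isClosed_image_coe.2 ⟨hC', hC⟩
  have hop : IsOpen ((↑) '' U : Set (OnePoint X)) := OnePoint.isOpen_image_coe.2 hU
  apply ContinuousOn.union_of_isClosed _ _ (isClosed_univ.prod hcl)
    (isClosed_univ.prod hop.isClosed_compl)
  · rintro ⟨t, z⟩ ⟨-, x, hx, rfl⟩
    have hemb : IsEmbedding (Prod.map id (↑) : T × X → T × OnePoint X) :=
      IsEmbedding.id.prodMap OnePoint.isOpenEmbedding_coe.isEmbedding
    have h2 : (Set.univ ×ˢ ((↑) '' C) : Set (T × OnePoint X)) =
        (Prod.map id (↑) : T × X → T × OnePoint X) '' (Set.univ ×ˢ C) := by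
      ext ⟨t', z'⟩
      constructor
      · rintro ⟨-, x', hx', rfl⟩
        exact ⟨(t', x'), ⟨Set.mem_univ _, hx'⟩, rfl⟩
      · rintro ⟨⟨t'', x''⟩, ⟨-, hx''⟩, he⟩
        exact ⟨Set.mem_univ _, x'', hx'', congrArg Prod.snd he⟩
    show Tendsto (extC C g) (𝓝[_] (t, (x : OnePoint X))) _
    have h3 : (t, (x : OnePoint X)) = (Prod.map id (↑) : T × X → T × OnePoint X) (t, x) := rfl
    rw [h2, h3, ← hemb.map_nhdsWithin_eq, tendsto_map'_iff]
    show Tendsto _ _ (𝓝 (extC C g (t, (x : OnePoint X))))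
    rw [extC_of_mem hx]
    refine (hg (t, x) ⟨Set.mem_univ _, hx⟩).congr' ?_
    filter_upwards [self_mem_nhdsWithin] with y hy
    exact (extC_of_mem (t := y.1) hy.2).symm
  · refine (continuousOn_const (c := (∞ : OnePoint Y))).congr ?_
    rintro ⟨t, z⟩ ⟨-, hz⟩
    induction z using OnePoint.rec with
    | infty => rfl
    | coe x =>
      by_cases hxC : x ∈ C
      · rw [extC_of_mem hxC]
        exact h t x hxC fun hxU => hz ⟨x, hxU, rfl⟩
      · exact extC_of_notMem hxC

end extC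

end Vale.Agent.P263.FR
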