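import Mathlib.Topology.MetricSpace.HausdorffDimension
import Mathlib.Analysis.Calculus.ContDiff.Operations
import Mathlib.Analysis.Calculus.FDeriv.Pi
import Mathlib.LinearAlgebra.Dimension.Constructions
import Mathlib.LinearAlgebra.Basis.VectorSpace
import Mathlib.Tactic

/-!
# P263, block F: regular perturbations without Sard's theorem

`exists_regular` : if `f : ℝᵐ → ℝᴷ` is of class `C²`, there are arbitrarily small `b`, `B` such that
`x ↦ f x + b + B x` has surjective derivative at every zero.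
-/

open Set Module
open scoped ENNReal

namespace Vale.Agent.P263.FR

section

variable {m K : ℕ} (f : (Fin m → ℝ) → (Fin K → ℝ))

/-- the entries of the derivative -/
noncomputable def dm (x : Fin m → ℝ) (i : Fin K) (k : Fin m) : ℝ :=
  fderiv ℝ f x (Pi.single k 1) i

/-- the affine perturbation of `f` -/
noncomputable def pert (b : Fin K → ℝ) (B : Fin K → Fin m → ℝ) (x : Fin m → ℝ) : Fin K → ℝ :=
  fun i => f x i + b i + ∑ k, B i k * x k

variable {f}

theorem contDiff_dm (hf : ContDiff ℝ 2 f) (i : Fin K) (k : Fin m) :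
    ContDiff ℝ 1 (fun x => dm f x i k) := by
  have h1 : ContDiff ℝ 1 (fun x => fderiv ℝ f x) := hf.fderiv_right (by norm_num)
  have h2 : ContDiff ℝ 1 (fun x => fderiv ℝ f x (Pi.single k 1)) := h1.clm_apply contDiff_const
  exact (contDiff_pi.mp h2) i

/-- the parametrisation of the bad perturbations, chart `j` -/
noncomputable def bad (f : (Fin m → ℝ) → (Fin K → ℝ)) (j : Fin K)
    (p : (Fin m → ℝ) × ({i : Fin K // i ≠ j} → ℝ) × ({i : Fin K // i ≠ j} → Fin m → ℝ)) :
    (Fin K → ℝ) × (Fin K → Fin m → ℝ) :=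
  (fun i => - f p.1 i - ∑ k, ((if h : i = j then ∑ i', p.2.1 i' * p.2.2 i' k else p.2.2 ⟨i, h⟩ k)
      - dm f p.1 i k) * p.1 k,
    fun i k => (if h : i = j then ∑ i', p.2.1 i' * p.2.2 i' k else p.2.2 ⟨i, h⟩ k) - dm f p.1 i k)

theorem contDiff_bad (hf : ContDiff ℝ 2 f) (j : Fin K) : ContDiff ℝ 1 (bad f j) := by
  have hx : ContDiff ℝ 1 (fun p : (Fin m → ℝ) × ({i : Fin K // i ≠ j} → ℝ) ×
      ({i : Fin K // i ≠ j} → Fin m → ℝ) => p.1) := contDiff_fst
  have hw : ∀ i' : {i : Fin K // i ≠ j}, ContDiff ℝ 1 (fun p : (Fin m → ℝ) ×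
      ({i : Fin K // i ≠ j} → ℝ) × ({i : Fin K // i ≠ j} → Fin m → ℝ) => p.2.1 i') := fun i' =>
    (contDiff_pi.mp (contDiff_fst.comp contDiff_snd)) i'
  have hL : ∀ (i' : {i : Fin K // i ≠ j}) (k : Fin m), ContDiff ℝ 1 (fun p : (Fin m → ℝ) ×
      ({i : Fin K // i ≠ j} → ℝ) × ({i : Fin K // i ≠ j} → Fin m → ℝ) => p.2.2 i' k) :=
    fun i' k => (contDiff_pi.mp ((contDiff_pi.mp (contDiff_snd.comp contDiff_snd)) i')) k
  have hD : ∀ i k, ContDiff ℝ 1 (fun p : (Fin m → ℝ) × ({i : Fin K // i ≠ j} → ℝ) ×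
      ({i : Fin K // i ≠ j} → Fin m → ℝ) => dm f p.1 i k) := fun i k =>
    (contDiff_dm hf i k).comp hx
  have hE : ∀ i k, ContDiff ℝ 1 (fun p : (Fin m → ℝ) × ({i : Fin K // i ≠ j} → ℝ) ×
      ({i : Fin K // i ≠ j} → Fin m → ℝ) =>
      (if h : i = j then ∑ i', p.2.1 i' * p.2.2 i' k else p.2.2 ⟨i, h⟩ k) - dm f p.1 i k) := by
    intro i k
    refine ContDiff.sub ?_ (hD i k)
    by_cases h : i = j
    · simp only [h, dite_true]
      exact ContDiff.sum fun i' _ => (hw i').mul (hL i' k)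
    · simp only [h, dite_false]
      exact hL _ k
  refine ContDiff.prodMk ?_ ?_
  · refine contDiff_pi.mpr fun i => ?_
    refine ContDiff.sub ?_ (ContDiff.sum fun k _ => (hE i k).mul ((contDiff_pi.mp hx) k))
    exact ((contDiff_pi.mp ((hf.of_le (by norm_num)).comp hx)) i).neg
  · exact contDiff_pi.mpr fun i => contDiff_pi.mpr fun k => hE i k

theorem finrank_lt (j : Fin K) :
    finrank ℝ ((Fin m → ℝ) × ({i : Fin K // i ≠ j} → ℝ) × ({i : Fin K // i ≠ j} → Fin m → ℝ)) <
      finrank ℝ ((Fin K → ℝ) × (Fin K → Fin m → ℝ)) := by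
  have hK : 0 < K := lt_of_le_of_lt (Nat.zero_le _) j.2
  have hc : Fintype.card {i : Fin K // i ≠ j} = K - 1 := by
    simp [Fintype.card_subtype_compl]
  have e1 : finrank ℝ ({i : Fin K // i ≠ j} → Fin m → ℝ) = (K - 1) * m := by
    rw [finrank_pi_fintype]
    simp only [finrank_fin_fun, Finset.sum_const, Finset.card_univ, hc, smul_eq_mul]
  have e2 : finrank ℝ (Fin K → Fin m → ℝ) = K * m := by
    rw [finrank_pi_fintype]
    simp only [finrank_fin_fun, Finset.sum_const, Finset.card_univ, Fintype.card_fin, smul_eq_mul]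
  rw [finrank_prod, finrank_prod, finrank_prod, finrank_fin_fun, finrank_fin_fun,
    finrank_fintype_fun_eq_card, e1, e2, hc]
  obtain ⟨K', rfl⟩ : ∃ K', K = K' + 1 := ⟨K - 1, by omega⟩
  rw [Nat.add_sub_cancel, Nat.add_mul]
  omega

/-- the derivative of the perturbation -/
theorem hasFDerivAt_pert (hf : ContDiff ℝ 2 f) (b : Fin K → ℝ) (B : Fin K → Fin m → ℝ)
    (x : Fin m → ℝ) :
    HasFDerivAt (pert f b B) (fderiv ℝ f x + ContinuousLinearMap.pi fun i =>
      ∑ k, B i k • ContinuousLinearMap.proj (R := ℝ) (φ := fun _ : Fin m => ℝ) k) x := by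
  have h1 : HasFDerivAt f (fderiv ℝ f x) x :=
    (hf.differentiable (by norm_num) x).hasFDerivAt
  rw [hasFDerivAt_pi']
  intro i
  have h2 : HasFDerivAt (fun x => f x i) ((ContinuousLinearMap.proj i).comp (fderiv ℝ f x)) x :=
    (hasFDerivAt_pi'.mp h1) i
  have h3 : HasFDerivAt (fun x : Fin m → ℝ => ∑ k, B i k * x k)
      (∑ k, B i k • ContinuousLinearMap.proj (R := ℝ) (φ := fun _ : Fin m => ℝ) k) x := by
    refine HasFDerivAt.fun_sum fun k _ => ?_
    exact (ContinuousLinearMap.proj (R := ℝ) (φ := fun _ : Fin m => ℝ) k).hasFDerivAt.const_mul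
      (B i k)
  have h4 := (h2.add_const (b i)).add h3
  refine h4.congr_fderiv ?_
  ext v
  simp

/-- a bad perturbation is in the range of one of the charts -/
theorem mem_range_bad (hf : ContDiff ℝ 2 f) {b : Fin K → ℝ} {B : Fin K → Fin m → ℝ}
    {x : Fin m → ℝ} (h0 : pert f b B x = 0)
    (h1 : ¬ Function.Surjective (fderiv ℝ (pert f b B) x)) :
    ∃ j, (b, B) ∈ range (bad f j) := by
  have e1 := (hasFDerivAt_pert hf b B x).fderiv
  set D := fderiv ℝ (pert f b B) x with hD
  have h2 : LinearMap.range (D : (Fin m → ℝ) →ₗ[ℝ] (Fin K → ℝ)) < ⊤ := by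
    rw [lt_top_iff_ne_top]
    intro h
    exact h1 (LinearMap.range_eq_top.mp h)
  obtain ⟨v, hv, hle⟩ := Submodule.exists_le_ker_of_lt_top _ h2
  obtain ⟨j, hj⟩ : ∃ j, v (Pi.single j 1) ≠ 0 := by
    by_contra h
    push Not at h
    apply hv
    refine LinearMap.pi_ext' fun i => ?_
    ext
    simpa using h i
  -- the relation between the rows
  have h3 : ∀ k, ∑ i, D (Pi.single k 1) i * v (Pi.single i 1) = 0 := fun k => by
    have h4 : v (D (Pi.single k 1)) = 0 := by
      have h5 : (D (Pi.single k 1)) ∈ LinearMap.range (D : (Fin m → ℝ) →ₗ[ℝ] (Fin K → ℝ)) :=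
        ⟨_, rfl⟩
      exact hle h5
    rw [LinearMap.pi_apply_eq_sum_univ v (D (Pi.single k 1))] at h4
    simp only [smul_eq_mul] at h4
    rw [← h4]
    refine Finset.sum_congr rfl fun i _ => ?_
    congr 2
    funext i'
    simp [Pi.single_apply, eq_comm]
  have e2 : ∀ i k, D (Pi.single k 1) i = dm f x i k + B i k := fun i k => by
    rw [e1]
    simp [dm, Pi.single_apply]
  refine ⟨j, ⟨(x, fun i' => - (v (Pi.single i'.1 1) / v (Pi.single j 1)),
    fun i' k => dm f x i'.1 k + B i'.1 k), ?_⟩⟩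
  have h6 : ∀ i k, ((if h : i = j then ∑ i' : {i : Fin K // i ≠ j},
      - (v (Pi.single i'.1 1) / v (Pi.single j 1)) * (dm f x i'.1 k + B i'.1 k)
        else dm f x i k + B i k) - dm f x i k) = B i k := by
    intro i k
    by_cases h : i = j
    · subst h
      simp only [dite_true]
      have h7 := h3 k
      rw [← Finset.add_sum_erase _ _ (Finset.mem_univ i)] at h7
      have h8 : ∑ i' : {i' : Fin K // i' ≠ i},
          - (v (Pi.single i'.1 1) / v (Pi.single i 1)) * (dm f x i'.1 k + B i'.1 k) =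
          - (∑ i' ∈ Finset.univ.erase i, D (Pi.single k 1) i' * v (Pi.single i' 1)) /
            v (Pi.single i 1) := by
        rw [neg_div, Finset.sum_div, ← Finset.sum_neg_distrib]
        rw [Finset.sum_subtype (Finset.univ.erase i) (p := fun i' => i' ≠ i) (by simp)]
        refine Finset.sum_congr rfl fun i' _ => ?_
        rw [e2]
        ring
      rw [h8]
      have h9 : ∑ i' ∈ Finset.univ.erase i, D (Pi.single k 1) i' * v (Pi.single i' 1) =
          - (D (Pi.single k 1) i * v (Pi.single i 1)) := by linarith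
      rw [h9, e2]
      field_simp
      ring
    · simp only [h, dite_false]
      ring
  refine Prod.ext (funext fun i => ?_) (funext fun i => funext fun k => h6 i k)
  have h10 : f x i + b i + ∑ k, B i k * x k = 0 := congrFun h0 i
  show - f x i - ∑ k, ((if h : i = j then ∑ i' : {i : Fin K // i ≠ j},
      - (v (Pi.single i'.1 1) / v (Pi.single j 1)) * (dm f x i'.1 k + B i'.1 k)
        else dm f x i k + B i k) - dm f x i k) * x k = b i
  simp only [h6]
  linarith

/-- **Regular perturbations.** -/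
theorem exists_regular (hf : ContDiff ℝ 2 f) {ε : ℝ} (hε : 0 < ε) :
    ∃ (b : Fin K → ℝ) (B : Fin K → Fin m → ℝ), ‖b‖ < ε ∧ ‖B‖ < ε ∧
      ∀ x, pert f b B x = 0 → Function.Surjective (fderiv ℝ (pert f b B) x) := by
  rcases Nat.eq_zero_or_pos K with rfl | hK
  · refine ⟨0, 0, by rwa [norm_zero], by rwa [norm_zero], fun x _ y => ⟨0, ?_⟩⟩
    exact Subsingleton.elim _ _
  have h1 : dimH (⋃ j, range (bad f j)) <
      finrank ℝ ((Fin K → ℝ) × (Fin K → Fin m → ℝ)) := by
    rw [dimH_iUnion]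
    have j0 : Fin K := ⟨0, hK⟩
    refine lt_of_le_of_lt (iSup_le fun j => (contDiff_bad hf j).dimH_range_le.trans
      (Nat.cast_le.mpr (Nat.le_sub_one_of_lt (finrank_lt j)))) (Nat.cast_lt.mpr ?_)
    have := finrank_lt (m := m) j0
    omega
  have h2 : Dense (⋃ j, range (bad f j))ᶜ := dense_compl_of_dimH_lt_finrank h1
  obtain ⟨p, hp, hpε⟩ := h2.exists_dist_lt (0 : (Fin K → ℝ) × (Fin K → Fin m → ℝ)) hε
  rw [dist_comm, dist_zero_right] at hpε
  refine ⟨p.1, p.2, lt_of_le_of_lt (norm_fst_le p) hpε, lt_of_le_of_lt (norm_snd_le p) hpε,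
    fun x hx => ?_⟩
  by_contra h
  obtain ⟨j, hj⟩ := mem_range_bad hf hx h
  exact hp (mem_iUnion.mpr ⟨j, hj⟩)

end

end Vale.Agent.P263.FR
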