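import Mathlib.Analysis.Calculus.ContDiff.Basic
import Mathlib.Analysis.Calculus.ContDiff.Operations
import Mathlib.Analysis.Calculus.MeanValue
import Mathlib.Analysis.Normed.Module.FiniteDimension
import Mathlib.Topology.Instances.Matrix
import Mathlib.LinearAlgebra.Matrix.NonsingularInverse
import Mathlib.LinearAlgebra.Matrix.ToLin
import Mathlib.LinearAlgebra.Matrix.DotProduct
import Mathlib.Topology.UniformSpace.UniformConvergence
import Mathlib.Tactic

/-!
# P263, block F: the retraction onto a regular zero set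

`exists_rightInv` : right inverses of the derivative which depend continuously on the point.
`exists_retraction` : Newton's method gives a continuous retraction of a neighbourhood of a compact
regular zero set.
-/

open Set Filter Topology Metric

namespace Vale.Agent.P263.FR

section rightInv

variable {m K : ℕ}

theorem isUnit_gram (J : Matrix (Fin K) (Fin m) ℝ) (h : Function.Surjective J.mulVec) :
    IsUnit (J * J.transpose).det := by
  rw [← Matrix.isUnit_iff_isUnit_det, ← Matrix.mulVec_injective_iff_isUnit]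
  have key : ∀ y : Fin K → ℝ, (J * J.transpose).mulVec y = 0 → y = 0 := by
    intro y hy
    have h1 : J.transpose.mulVec y = 0 := by
      have h2 : dotProduct (J.transpose.mulVec y) (J.transpose.mulVec y) = 0 := by
        have h3 : dotProduct y ((J * J.transpose).mulVec y) = 0 := by
          rw [hy, dotProduct_zero]
        rw [← Matrix.mulVec_mulVec, Matrix.dotProduct_mulVec, ← Matrix.mulVec_transpose] at h3
        exact h3
      exact dotProduct_self_eq_zero.mp h2
    obtain ⟨z, hz⟩ := h y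
    have h4 : dotProduct y y = 0 := by
      conv_lhs => rw [← hz]
      rw [dotProduct_comm, hz]
      have h5 : dotProduct y (J.mulVec z) = 0 := by
        rw [Matrix.dotProduct_mulVec, ← Matrix.mulVec_transpose, h1, zero_dotProduct]
      rw [hz] at h5
      exact h5
    exact dotProduct_self_eq_zero.mp h4
  intro y y' hyy
  have : (J * J.transpose).mulVec (y - y') = 0 := by
    rw [Matrix.mulVec_sub]
    exact sub_eq_zero.mpr hyy
  exact sub_eq_zero.mp (key _ this)

/-- the matrix of the derivative -/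
noncomputable def jac (f : (Fin m → ℝ) → (Fin K → ℝ)) (x : Fin m → ℝ) : Matrix (Fin K) (Fin m) ℝ :=
  LinearMap.toMatrix' (fderiv ℝ f x : (Fin m → ℝ) →ₗ[ℝ] (Fin K → ℝ))

theorem jac_mulVec (f : (Fin m → ℝ) → (Fin K → ℝ)) (x v : Fin m → ℝ) :
    (jac f x).mulVec v = fderiv ℝ f x v := by
  have := LinearMap.toMatrix'_mulVec (fderiv ℝ f x : (Fin m → ℝ) →ₗ[ℝ] (Fin K → ℝ)) v
  exact this

/-- matrices as continuous linear maps -/
noncomputable def mtc : Matrix (Fin m) (Fin K) ℝ →ₗ[ℝ] ((Fin K → ℝ) →L[ℝ] (Fin m → ℝ)) :=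
  (LinearMap.toContinuousLinearMap (𝕜 := ℝ) (E := Fin K → ℝ) (F' := Fin m → ℝ)).toLinearMap.comp
    (Matrix.toLin' (R := ℝ) (m := Fin m) (n := Fin K)).toLinearMap

theorem mtc_apply (A : Matrix (Fin m) (Fin K) ℝ) (y : Fin K → ℝ) : mtc A y = A.mulVec y := rfl

theorem continuous_mtc : Continuous (mtc (m := m) (K := K)) :=
  LinearMap.continuous_of_finiteDimensional _

theorem exists_rightInv {f : (Fin m → ℝ) → (Fin K → ℝ)} (hf : ContDiff ℝ 1 f) :
    ∃ (U : Set (Fin m → ℝ)) (A : (Fin m → ℝ) → ((Fin K → ℝ) →L[ℝ] (Fin m → ℝ))), IsOpen U ∧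
      ContinuousOn A U ∧ (∀ x ∈ U, ∀ y, fderiv ℝ f x (A x y) = y) ∧
        ∀ x, Function.Surjective (fderiv ℝ f x) → x ∈ U := by
  have hJ : Continuous (jac f) := by
    have h1 : Continuous (fderiv ℝ f) := hf.continuous_fderiv (by norm_num)
    have h2 : ∀ i j, Continuous fun x => jac f x i j := fun i j => by
      have h3 : ∀ x, jac f x i j = fderiv ℝ f x (Pi.single j 1) i := fun x => by
        rw [jac, LinearMap.toMatrix'_apply]
        rfl
      simp only [h3]
      exact (continuous_apply i).comp (h1.clm_apply continuous_const)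
    exact continuous_matrix h2
  have hG : Continuous fun x => (jac f x * (jac f x).transpose) :=
    hJ.matrix_mul hJ.matrix_transpose
  have hd : Continuous fun x => (jac f x * (jac f x).transpose).det := hG.matrix_det
  refine ⟨{x | (jac f x * (jac f x).transpose).det ≠ 0},
    fun x => mtc ((jac f x).transpose * (jac f x * (jac f x).transpose)⁻¹),
    isOpen_ne_fun hd continuous_const, ?_, ?_, ?_⟩
  · refine continuous_mtc.comp_continuousOn ?_
    rw [continuousOn_iff_continuous_domRestrict]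
    refine Continuous.matrix_mul (hJ.matrix_transpose.comp continuous_subtype_val) ?_
    rw [continuous_iff_continuousAt]
    rintro ⟨x, hx⟩
    have h4 : ContinuousAt (fun G : Matrix (Fin K) (Fin K) ℝ => G⁻¹)
        (jac f x * (jac f x).transpose) := by
      refine continuousAt_matrix_inv _ ?_
      rw [Ring.inverse_eq_inv']
      exact continuousAt_inv₀ hx
    exact ContinuousAt.comp (f := fun x : {x | (jac f x * (jac f x).transpose).det ≠ 0} =>
      jac f x * (jac f x).transpose) (x := ⟨x, hx⟩) h4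
      (hG.comp continuous_subtype_val).continuousAt
  · intro x hx y
    rw [mtc_apply, ← jac_mulVec, Matrix.mulVec_mulVec, ← Matrix.mul_assoc,
      Matrix.mul_nonsing_inv _ (isUnit_iff_ne_zero.mpr hx), Matrix.one_mulVec]
  · intro x hx
    refine isUnit_iff_ne_zero.mp (isUnit_gram _ ?_)
    intro y
    obtain ⟨v, hv⟩ := hx y
    exact ⟨v, (jac_mulVec f x v).trans hv⟩

end rightInv

section newton

variable {E G : Type*} [NormedAddCommGroup E] [NormedSpace ℝ E] [FiniteDimensional ℝ E]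
  [NormedAddCommGroup G] [NormedSpace ℝ G]

/-- uniform differentiability on compact sets -/
theorem unif_diff {f : E → G} (hf : ContDiff ℝ 1 f) {Q : Set E} (hQ : IsCompact Q) {ε : ℝ}
    (hε : 0 < ε) : ∃ δ > 0, ∀ x ∈ Q, ∀ h : E, ‖h‖ ≤ δ →
      ‖f (x + h) - f x - fderiv ℝ f x h‖ ≤ ε * ‖h‖ := by
  have : ProperSpace E := FiniteDimensional.proper ℝ E
  have h1 : Continuous (fderiv ℝ f) := hf.continuous_fderiv (by norm_num)
  have hQ' : IsCompact (cthickening 1 Q) := hQ.cthickening
  have h2 : UniformContinuousOn (fderiv ℝ f) (cthickening 1 Q) :=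
    hQ'.uniformContinuousOn_of_continuous h1.continuousOn
  obtain ⟨δ, hδ, h3⟩ := Metric.uniformContinuousOn_iff.mp h2 ε hε
  refine ⟨min (δ / 2) 1, lt_min (by linarith) one_pos, fun x hx h hh => ?_⟩
  have hx1 : x ∈ cthickening 1 Q := self_subset_cthickening Q hx
  have h4 : ∀ y ∈ closedBall x (min (δ / 2) 1), ‖fderiv ℝ f y - fderiv ℝ f x‖ ≤ ε := by
    intro y hy
    rw [mem_closedBall] at hy
    have hy1 : y ∈ cthickening 1 Q :=
      mem_cthickening_of_dist_le y x 1 Q hx (hy.trans (min_le_right _ _))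
    have h5 := h3 y hy1 x hx1 (lt_of_le_of_lt (hy.trans (min_le_left _ _)) (by linarith))
    rw [dist_eq_norm] at h5
    exact h5.le
  have h6 := (convex_closedBall x (min (δ / 2) 1)).norm_image_sub_le_of_norm_fderiv_le'
    (fun y _ => hf.differentiable (by norm_num) y) h4
    (mem_closedBall_self (le_min (by linarith) one_pos.le))
    (show x + h ∈ closedBall x (min (δ / 2) 1) by
      rw [mem_closedBall, dist_eq_norm, add_sub_cancel_left]
      exact hh)
  rwa [add_sub_cancel_left] at h6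

/-- **Newton's method**: a continuous retraction onto a compact regular zero set. -/
theorem newton {f : E → G} (hf : ContDiff ℝ 1 f) {U C W : Set E} (hU : IsOpen U)
    (hC : IsCompact C) (hUC : U ⊆ C) (hz : ∀ x ∈ C, f x = 0 → x ∈ U) {U₁ : Set E}
    {A : E → (G →L[ℝ] E)} (hU₁ : IsOpen U₁) (hA : ContinuousOn A U₁)
    (hAf : ∀ x ∈ U₁, ∀ y, fderiv ℝ f x (A x y) = y) (hs : ∀ x ∈ U, f x = 0 → x ∈ U₁)
    (hW : IsOpen W) (hMW : ∀ x ∈ U, f x = 0 → x ∈ W) :
    ∃ δ > 0, ∃ ρ : E → E, ContinuousOn ρ {x ∈ C | ‖f x‖ ≤ δ} ∧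
      (∀ x ∈ C, ‖f x‖ ≤ δ → ρ x ∈ U ∧ f (ρ x) = 0 ∧ segment ℝ x (ρ x) ⊆ W) ∧
        (∀ x ∈ U, f x = 0 → ρ x = x) ∧ ∃ L, ∀ x ∈ C, ‖f x‖ ≤ δ → ‖x - ρ x‖ ≤ L * ‖f x‖ := by
  have : ProperSpace E := FiniteDimensional.proper ℝ E
  have hfc : Continuous f := hf.continuous
  set M : Set E := {x ∈ C | f x = 0} with hM
  have hMc : IsCompact M := hC.inter_right (isClosed_eq hfc continuous_const)
  have hMV : M ⊆ U ∩ U₁ ∩ W := fun x hx =>
    ⟨⟨hz x hx.1 hx.2, hs x (hz x hx.1 hx.2) hx.2⟩, hMW x (hz x hx.1 hx.2) hx.2⟩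
  obtain ⟨r, hr, hrV⟩ := hMc.exists_cthickening_subset_open ((hU.inter hU₁).inter hW) hMV
  have hQ : IsCompact (cthickening r M) := hMc.cthickening
  have hAQ : ContinuousOn A (cthickening r M) := hA.mono fun x hx => (hrV hx).1.2
  obtain ⟨CA', hCA'⟩ := hQ.exists_bound_of_continuousOn hAQ
  set CA : ℝ := max CA' 1 with hCAdef
  have hCA : ∀ x ∈ cthickening r M, ‖A x‖ ≤ CA := fun x hx => (hCA' x hx).trans (le_max_left _ _)
  have hCA1 : 1 ≤ CA := le_max_right _ _
  have hCA0 : 0 < CA := by linarith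
  obtain ⟨δ₁, hδ₁, hdiff⟩ := unif_diff hf hQ (ε := 1 / (2 * CA)) (by positivity)
  -- points with small value are near `M`
  obtain ⟨δ₂, hδ₂, hnear⟩ : ∃ δ₂ > 0, ∀ x ∈ C, ‖f x‖ ≤ δ₂ → x ∈ thickening (r / 2) M := by
    have h1 : IsCompact (C \ thickening (r / 2) M) := hC.diff isOpen_thickening
    obtain ⟨a, ha, h2⟩ := h1.exists_forall_le' (f := fun x => ‖f x‖) hfc.norm.continuousOn
      (a := 0) (fun x hx => by
        rw [norm_pos_iff]
        intro h0
        exact hx.2 (self_subset_thickening (by linarith) M ⟨hx.1, h0⟩))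
    refine ⟨a / 2, by linarith, fun x hx hfx => ?_⟩
    by_contra h3
    have := h2 x ⟨hx, h3⟩
    linarith
  set δ : ℝ := min δ₂ (min (δ₁ / CA) (r / (4 * CA))) with hδ
  have hδ0 : 0 < δ := by positivity
  have hδa : δ ≤ δ₂ := min_le_left _ _
  have hδb : CA * δ ≤ δ₁ := by
    have : δ ≤ δ₁ / CA := (min_le_right _ _).trans (min_le_left _ _)
    rw [le_div_iff₀ hCA0] at this
    linarith
  have hδc : 2 * (CA * δ) ≤ r / 2 := by
    have : δ ≤ r / (4 * CA) := (min_le_right _ _).trans (min_le_right _ _)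
    rw [le_div_iff₀ (by positivity)] at this
    linarith
  -- the iteration
  let N : E → E := fun x => x - A x (f x)
  let P : ℕ → E → E := fun k => N^[k]
  have hP0 : ∀ x, P 0 x = x := fun x => rfl
  have hPs : ∀ k x, P (k + 1) x = P k x - A (P k x) (f (P k x)) := fun k x => by
    show N^[k + 1] x = _
    rw [Function.iterate_succ_apply']
  have key : ∀ x ∈ C, ‖f x‖ ≤ δ → ∀ k, P k x ∈ cthickening r M ∧
      ‖f (P k x)‖ ≤ ‖f x‖ / 2 ^ k ∧ dist (P k x) x ≤ CA * ‖f x‖ * (2 - 2 / 2 ^ k) := by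
    intro x hx hfx k
    have hxM : x ∈ thickening (r / 2) M := hnear x hx (hfx.trans hδa)
    obtain ⟨z, hzM, hxz⟩ := mem_thickening_iff.mp hxM
    have hmem : ∀ y, dist y x ≤ r / 2 → y ∈ cthickening r M := fun y hy =>
      mem_cthickening_of_dist_le y z r M hzM ((dist_triangle y x z).trans (by linarith))
    induction k with
    | zero =>
      refine ⟨?_, ?_, ?_⟩
      · rw [hP0]
        exact hmem x (by rw [dist_self]; linarith)
      · rw [hP0]
        simp
      · rw [hP0, dist_self]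
        simp
    | succ k ih =>
      obtain ⟨i1, i2, i3⟩ := ih
      have hpos : (0 : ℝ) < 2 ^ k := by positivity
      have h4 : ‖f (P k x)‖ ≤ ‖f x‖ := i2.trans (div_le_self (norm_nonneg _)
        (one_le_pow₀ (by norm_num)))
      have h5 : ‖A (P k x) (f (P k x))‖ ≤ CA * ‖f (P k x)‖ :=
        (ContinuousLinearMap.le_opNorm _ _).trans
          (mul_le_mul_of_nonneg_right (hCA _ i1) (norm_nonneg _))
      have h6 : ‖- A (P k x) (f (P k x))‖ ≤ δ₁ := by
        rw [norm_neg]
        refine h5.trans (le_trans ?_ hδb)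
        exact mul_le_mul_of_nonneg_left (h4.trans hfx) hCA0.le
      have h7 := hdiff (P k x) i1 _ h6
      have h8 : P (k + 1) x = P k x + - A (P k x) (f (P k x)) := by
        rw [hPs, sub_eq_add_neg]
      have h9 : fderiv ℝ f (P k x) (- A (P k x) (f (P k x))) = - f (P k x) := by
        rw [map_neg, hAf _ (hrV i1).1.2]
      rw [h9, ← h8, sub_neg_eq_add, sub_add_cancel, norm_neg] at h7
      have h10 : ‖f (P (k + 1) x)‖ ≤ ‖f (P k x)‖ / 2 := by
        refine h7.trans ?_
        calc 1 / (2 * CA) * ‖A (P k x) (f (P k x))‖ ≤ 1 / (2 * CA) * (CA * ‖f (P k x)‖) :=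
              mul_le_mul_of_nonneg_left h5 (by positivity)
          _ = ‖f (P k x)‖ / 2 := by field_simp
      have h11 : dist (P (k + 1) x) (P k x) ≤ CA * ‖f x‖ / 2 ^ k := by
        rw [h8, dist_eq_norm, add_sub_cancel_left, norm_neg]
        refine h5.trans ?_
        rw [mul_div_assoc]
        exact mul_le_mul_of_nonneg_left i2 hCA0.le
      have h12 : dist (P (k + 1) x) x ≤ CA * ‖f x‖ * (2 - 2 / 2 ^ (k + 1)) := by
        refine (dist_triangle _ (P k x) _).trans ?_
        refine (add_le_add h11 i3).trans (le_of_eq ?_)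
        rw [pow_succ]
        field_simp
        ring
      refine ⟨hmem _ (h12.trans ?_), ?_, h12⟩
      · have h13 : CA * ‖f x‖ * (2 - 2 / 2 ^ (k + 1)) ≤ CA * ‖f x‖ * 2 := by
          refine mul_le_mul_of_nonneg_left ?_ (by positivity)
          have : (0 : ℝ) ≤ 2 / 2 ^ (k + 1) := by positivity
          linarith
        have h14 : CA * ‖f x‖ ≤ CA * δ := mul_le_mul_of_nonneg_left hfx hCA0.le
        linarith
      · refine h10.trans ?_
        rw [pow_succ, ← div_div]
        linarith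
  let t : ℕ → E → E := fun k x => A (P k x) (f (P k x))
  have ht : ∀ k, ∀ x ∈ {x ∈ C | ‖f x‖ ≤ δ}, ‖t k x‖ ≤ CA * δ * (1 / 2) ^ k := by
    intro k x hx
    obtain ⟨i1, i2, -⟩ := key x hx.1 hx.2 k
    refine (ContinuousLinearMap.le_opNorm _ _).trans
      ((mul_le_mul (hCA _ i1) i2 (norm_nonneg _) hCA0.le).trans ?_)
    rw [one_div, inv_pow, ← div_eq_mul_inv, mul_div_assoc]
    exact mul_le_mul_of_nonneg_left (div_le_div_of_nonneg_right hx.2 (by positivity)) hCA0.le
  have hsum : Summable fun k : ℕ => CA * δ * (1 / 2 : ℝ) ^ k :=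
    (summable_geometric_of_lt_one (by norm_num) (by norm_num)).mul_left _
  have hPc : ∀ k, ContinuousOn (P k) {x ∈ C | ‖f x‖ ≤ δ} := by
    intro k
    induction k with
    | zero => exact continuousOn_id
    | succ k ih =>
      have h1 : ContinuousOn (fun x => P k x - A (P k x) (f (P k x))) {x ∈ C | ‖f x‖ ≤ δ} := by
        refine ih.sub (ContinuousOn.clm_apply ?_ (hfc.comp_continuousOn ih))
        exact hAQ.comp ih fun x hx => (key x hx.1 hx.2 k).1
      exact h1.congr fun x _ => hPs k x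
  have htc : ∀ k, ContinuousOn (t k) {x ∈ C | ‖f x‖ ≤ δ} := fun k =>
    ContinuousOn.clm_apply (hAQ.comp (hPc k) fun x hx => (key x hx.1 hx.2 k).1)
      (hfc.comp_continuousOn (hPc k))
  let ρ : E → E := fun x => x - ∑' k, t k x
  have hρc : ContinuousOn ρ {x ∈ C | ‖f x‖ ≤ δ} :=
    continuousOn_id.sub (continuousOn_tsum htc hsum ht)
  have hlim : ∀ x ∈ C, ‖f x‖ ≤ δ → Tendsto (fun k => P k x) atTop (𝓝 (ρ x)) := by
    intro x hx hfx
    have h1 : Summable fun k => t k x :=
      Summable.of_norm_bounded hsum fun k => ht k x ⟨hx, hfx⟩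
    have h2 : ∀ k, P k x = x - ∑ i ∈ Finset.range k, t i x := by
      intro k
      induction k with
      | zero => simp [hP0]
      | succ k ih =>
        rw [hPs, Finset.sum_range_succ, ← sub_sub, ← ih]
    have h3 := h1.hasSum.tendsto_sum_nat
    have h4 : Tendsto (fun k => x - ∑ i ∈ Finset.range k, t i x) atTop (𝓝 (ρ x)) :=
      tendsto_const_nhds.sub h3
    exact h4.congr fun k => (h2 k).symm
  have hlip : ∀ x ∈ C, ‖f x‖ ≤ δ → ‖x - ρ x‖ ≤ CA * 2 * ‖f x‖ := by
    intro x hx hfx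
    have h5 : Tendsto (fun k => dist (P k x) x) atTop (𝓝 (dist (ρ x) x)) :=
      (hlim x hx hfx).dist tendsto_const_nhds
    rw [← dist_eq_norm, dist_comm]
    refine le_of_tendsto h5 (Eventually.of_forall fun k => ?_)
    refine (key x hx hfx k).2.2.trans ?_
    have h13 : CA * ‖f x‖ * (2 - 2 / 2 ^ k) ≤ CA * ‖f x‖ * 2 := by
      refine mul_le_mul_of_nonneg_left ?_ (by positivity)
      have : (0 : ℝ) ≤ 2 / 2 ^ k := by positivity
      linarith
    linarith
  refine ⟨δ, hδ0, ρ, hρc, ?_, ?_, CA * 2, hlip⟩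
  · intro x hx hfx
    have h1 := hlim x hx hfx
    have h2 : ρ x ∈ cthickening r M :=
      isClosed_cthickening.mem_of_tendsto h1 (Eventually.of_forall fun k => (key x hx hfx k).1)
    have h3 : f (ρ x) = 0 := by
      have h4 : Tendsto (fun k => f (P k x)) atTop (𝓝 (f (ρ x))) :=
        (hfc.tendsto _).comp h1
      have h5 : Tendsto (fun k => f (P k x)) atTop (𝓝 0) := by
        refine squeeze_zero_norm (fun k => (key x hx hfx k).2.1) ?_
        have h6 : Tendsto (fun k : ℕ => ‖f x‖ * (1 / 2 : ℝ) ^ k) atTop (𝓝 (‖f x‖ * 0)) :=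
          (tendsto_pow_atTop_nhds_zero_of_lt_one (by norm_num) (by norm_num)).const_mul _
        rw [mul_zero] at h6
        refine h6.congr fun k => ?_
        rw [one_div, inv_pow, ← div_eq_mul_inv]
      exact tendsto_nhds_unique h4 h5
    have h4 : dist (ρ x) x ≤ r / 2 := by
      have h5 : Tendsto (fun k => dist (P k x) x) atTop (𝓝 (dist (ρ x) x)) :=
        h1.dist tendsto_const_nhds
      refine le_of_tendsto h5 (Eventually.of_forall fun k => ?_)
      refine (key x hx hfx k).2.2.trans ?_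
      have h13 : CA * ‖f x‖ * (2 - 2 / 2 ^ k) ≤ CA * ‖f x‖ * 2 := by
        refine mul_le_mul_of_nonneg_left ?_ (by positivity)
        have : (0 : ℝ) ≤ 2 / 2 ^ k := by positivity
        linarith
      have h14 : CA * ‖f x‖ ≤ CA * δ := mul_le_mul_of_nonneg_left hfx hCA0.le
      linarith
    refine ⟨(hrV h2).1.1, h3, fun y hy => ?_⟩
    have hxM : x ∈ thickening (r / 2) M := hnear x hx (hfx.trans hδa)
    obtain ⟨z, hzM, hxz⟩ := mem_thickening_iff.mp hxM
    have h5 : dist y x ≤ r / 2 := by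
      have h6 : y ∈ closedBall x (r / 2) :=
        (convex_closedBall x (r / 2)).segment_subset (mem_closedBall_self (by linarith))
          (mem_closedBall.mpr h4) hy
      exact mem_closedBall.mp h6
    exact (hrV (mem_cthickening_of_dist_le y z r M hzM
      ((dist_triangle y x z).trans (by linarith)))).2
  · intro x hx hfx
    have h1 : ∀ k, P k x = x := by
      intro k
      induction k with
      | zero => rfl
      | succ k ih => rw [hPs, ih, hfx, map_zero, sub_zero]
    have h2 : ∀ k, t k x = 0 := fun k => by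
      show A (P k x) (f (P k x)) = 0
      rw [h1, hfx, map_zero]
    show x - ∑' k, t k x = x
    simp [h2]

end newton

/-- **The retraction onto a compact regular zero set.** -/
theorem exists_retraction {m K : ℕ} {f : (Fin m → ℝ) → (Fin K → ℝ)} (hf : ContDiff ℝ 1 f)
    {U C W : Set (Fin m → ℝ)} (hU : IsOpen U) (hC : IsCompact C) (hUC : U ⊆ C)
    (hz : ∀ x ∈ C, f x = 0 → x ∈ U) (hs : ∀ x ∈ U, f x = 0 → Function.Surjective (fderiv ℝ f x))
    (hW : IsOpen W) (hMW : ∀ x ∈ U, f x = 0 → x ∈ W) :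
    ∃ δ > 0, ∃ ρ : (Fin m → ℝ) → (Fin m → ℝ), ContinuousOn ρ {x ∈ C | ‖f x‖ ≤ δ} ∧
      (∀ x ∈ C, ‖f x‖ ≤ δ → ρ x ∈ U ∧ f (ρ x) = 0 ∧ segment ℝ x (ρ x) ⊆ W) ∧
        (∀ x ∈ U, f x = 0 → ρ x = x) ∧ ∃ L, ∀ x ∈ C, ‖f x‖ ≤ δ → ‖x - ρ x‖ ≤ L * ‖f x‖ := by
  obtain ⟨U₁, A, hU₁, hA, hAf, h1⟩ := exists_rightInv hf
  exact newton hf hU hC hUC hz hU₁ hA hAf (fun x hx h0 => h1 x (hs x hx h0)) hW hMW

end Vale.Agent.P263.FR
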